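import Vale.Agent.Lib.P235.Defs

open MeasureTheory

namespace Vale.Agent.Lib.P235

/-- `0/1` value of a Boolean -/
def b01 (t : Bool) : ℝ := if t then 1 else 0

theorem b01_cases (t : Bool) : b01 t = 0 ∨ b01 t = 1 := by
  cases t <;> simp [b01]

theorem cut_eq_indicator {x y : ℝ} (h : x ≤ y) :
    (fun τ : ℝ => |b01 (decide (τ < x)) - b01 (decide (τ < y))|)
      = (Set.Ico x y).indicator (fun _ => (1 : ℝ)) := by
  funext τ
  by_cases h1 : τ < x
  · have h2 : τ < y := lt_of_lt_of_le h1 h
    have h3 : τ ∉ Set.Ico x y := fun hh => absurd hh.1 (not_le.mpr h1)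
    simp [b01, h1, h2, h3]
  · by_cases h2 : τ < y
    · have h3 : τ ∈ Set.Ico x y := ⟨not_lt.mp h1, h2⟩
      simp [b01, h1, h2, h3]
    · have h3 : τ ∉ Set.Ico x y := fun hh => h2 hh.2
      simp [b01, h1, h2, h3]

theorem cut_integrable (x y : ℝ) :
    Integrable (fun τ : ℝ => |b01 (decide (τ < x)) - b01 (decide (τ < y))|) := by
  rcases le_total x y with h | h
  · rw [cut_eq_indicator h]
    exact (integrable_indicator_iff measurableSet_Ico).2
      (integrableOn_const (by rw [Real.volume_Ico]; exact ENNReal.ofReal_ne_top))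
  · have : (fun τ : ℝ => |b01 (decide (τ < x)) - b01 (decide (τ < y))|)
        = (fun τ : ℝ => |b01 (decide (τ < y)) - b01 (decide (τ < x))|) := by
      funext τ
      exact abs_sub_comm _ _
    rw [this, cut_eq_indicator h]
    exact (integrable_indicator_iff measurableSet_Ico).2
      (integrableOn_const (by rw [Real.volume_Ico]; exact ENNReal.ofReal_ne_top))

theorem cut_integral (x y : ℝ) :
    ∫ τ : ℝ, |b01 (decide (τ < x)) - b01 (decide (τ < y))| = |x - y| := by
  rcases le_total x y with h | h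
  · rw [cut_eq_indicator h, integral_indicator measurableSet_Ico]
    simp [abs_sub_comm x y, abs_of_nonneg (sub_nonneg.mpr h), h]
  · have : (fun τ : ℝ => |b01 (decide (τ < x)) - b01 (decide (τ < y))|)
        = (fun τ : ℝ => |b01 (decide (τ < y)) - b01 (decide (τ < x))|) := by
      funext τ
      exact abs_sub_comm _ _
    rw [this, cut_eq_indicator h, integral_indicator measurableSet_Ico]
    simp [abs_of_nonneg (sub_nonneg.mpr h), h]

/-- A signed combination of cut metrics that is nonnegative on all cuts is nonnegative on all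
real functions. -/
theorem signed_real {W J : Type*} [Fintype J] (a : J → ℝ) (u v : J → W)
    (h : ∀ χ : W → Bool, 0 ≤ ∑ j, a j * |b01 (χ (u j)) - b01 (χ (v j))|) (F : W → ℝ) :
    0 ≤ ∑ j, a j * |F (u j) - F (v j)| := by
  have h1 : ∑ j, a j * |F (u j) - F (v j)|
      = ∫ τ : ℝ, ∑ j, a j * |b01 (decide (τ < F (u j))) - b01 (decide (τ < F (v j)))| := by
    rw [integral_finsetSum _ (fun j _ => (cut_integrable _ _).const_mul (a j))]
    refine Finset.sum_congr rfl fun j _ => ?_
    rw [integral_const_mul, cut_integral]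
  rw [h1]
  exact integral_nonneg fun τ => h (fun w => decide (τ < F w))

/-- The same in `L_1`. -/
theorem signed_Lp {Ω : Type*} [MeasurableSpace Ω] {μ : Measure Ω} {W J : Type*} [Fintype J]
    (a : J → ℝ) (u v : J → W)
    (h : ∀ χ : W → Bool, 0 ≤ ∑ j, a j * |b01 (χ (u j)) - b01 (χ (v j))|) (g : W → Lp ℝ 1 μ) :
    0 ≤ ∑ j, a j * ‖g (u j) - g (v j)‖ := by
  have hn : ∀ x y : W, ‖g x - g y‖ = ∫ ω, |g x ω - g y ω| ∂μ := by
    intro x y
    rw [L1.norm_eq_integral_norm]
    refine integral_congr_ae ?_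
    filter_upwards [Lp.coeFn_sub (g x) (g y)] with ω hω
    rw [hω]
    simp [Real.norm_eq_abs]
  have hi : ∀ x y : W, Integrable (fun ω => |g x ω - g y ω|) μ := fun x y =>
    ((L1.integrable_coeFn (g x)).sub (L1.integrable_coeFn (g y))).abs
  have h1 : ∑ j, a j * ‖g (u j) - g (v j)‖
      = ∫ ω, ∑ j, a j * |g (u j) ω - g (v j) ω| ∂μ := by
    rw [integral_finsetSum _ (fun j _ => (hi _ _).const_mul (a j))]
    refine Finset.sum_congr rfl fun j _ => ?_
    rw [integral_const_mul, hn]
  rw [h1]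
  exact integral_nonneg fun ω => signed_real a u v h (fun w => g w ω)

/-- An inequality between weighted sums of cuts, passed to `L_1`. -/
theorem ineq_Lp {Ω : Type*} [MeasurableSpace Ω] {μ : Measure Ω} {W E P : Type*} [Fintype E]
    [Fintype P] (fe : E → ℝ) (tl hd : E → W) (pw : P → ℝ) (pL pR : P → W) (ρ : ℝ) (s t : W)
    (h : ∀ χ : W → Bool,
      ∑ p, pw p * |b01 (χ (pL p)) - b01 (χ (pR p))| + ρ * |b01 (χ s) - b01 (χ t)|
        ≤ ∑ e, fe e * |b01 (χ (tl e)) - b01 (χ (hd e))|) (g : W → Lp ℝ 1 μ) :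
    ∑ p, pw p * ‖g (pL p) - g (pR p)‖ + ρ * ‖g s - g t‖
      ≤ ∑ e, fe e * ‖g (tl e) - g (hd e)‖ := by
  have := signed_Lp (J := E ⊕ (P ⊕ Unit))
    (Sum.elim fe (Sum.elim (fun p => - pw p) (fun _ => - ρ)))
    (Sum.elim tl (Sum.elim pL (fun _ => s))) (Sum.elim hd (Sum.elim pR (fun _ => t)))
    (by
      intro χ
      have := h χ
      simp only [Fintype.sum_sum_type, Sum.elim_inl, Sum.elim_inr, neg_mul, Finset.sum_neg_distrib,
        Fintype.sum_unique]
      linarith)
    g
  simp only [Fintype.sum_sum_type, Sum.elim_inl, Sum.elim_inr, neg_mul, Finset.sum_neg_distrib,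
    Fintype.sum_unique] at this
  linarith

end Vale.Agent.Lib.P235
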