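import Mathlib

namespace Vale.Agent.Lib.P235

/-- `G` has treewidth at most `w`: there is a tree `T` on a finite index type with bags of
vertices such that the bags containing any vertex form a nonempty connected subtree, every
edge of `G` lies in some bag, and every bag has at most `w + 1` vertices. -/
def TreewidthLE {V : Type} (G : SimpleGraph V) (w : ℕ) : Prop :=
  ∃ (ι : Type) (_ : Fintype ι) (T : SimpleGraph ι) (bag : ι → Finset V),
    T.IsTree ∧
    (∀ v : V, (T.induce {t : ι | v ∈ bag t}).Connected) ∧
    (∀ u v : V, G.Adj u v → ∃ t : ι, u ∈ bag t ∧ v ∈ bag t) ∧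
    (∀ t : ι, (bag t).card ≤ w + 1)

end Vale.Agent.Lib.P235
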