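import Vale.Agent.Lib.P235.Coarea

namespace Vale.Agent.Lib.P235

theorem pairs_abs {J : Type*} [Fintype J] (M : J → ℝ) (hM : ∀ j, M j = 0 ∨ M j = 1) :
    ∑ j, ∑ j', |M j - M j'| = 2 * (∑ j, M j) * ((Fintype.card J : ℝ) - ∑ j, M j) := by
  have h1 : ∀ j j', |M j - M j'| = M j + M j' - 2 * (M j * M j') := by
    intro j j'
    rcases hM j with h | h <;> rcases hM j' with h' | h' <;> norm_num [h, h']
  simp_rw [h1]
  set N := ∑ j, M j with hN
  have h2 : ∀ j, ∑ j', (M j + M j' - 2 * (M j * M j'))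
      = (Fintype.card J : ℝ) * M j + N - 2 * (M j * N) := by
    intro j
    rw [Finset.sum_sub_distrib, Finset.sum_add_distrib, ← Finset.mul_sum, ← Finset.mul_sum, ← hN]
    simp
  simp_rw [h2]
  rw [Finset.sum_sub_distrib, Finset.sum_add_distrib, ← Finset.mul_sum, ← Finset.mul_sum,
    ← Finset.sum_mul, ← hN]
  simp only [Finset.sum_const, Finset.card_univ, nsmul_eq_mul]
  ring

/-- The two tangent lines: the heart of the gadget inequality. -/
theorem core_tangent {k : ℕ} (hk : 0 < k) (α y : Fin k → ℝ)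
    (hα : ∀ i, α i = 0 ∨ (α i = 1 ∧ y i = 1)) :
    (1 / (k : ℝ)) * ∑ i, y i * (1 - y i)
        + ((1 / (k : ℝ)) * ∑ i, y i) * (1 - (1 / (k : ℝ)) * ∑ i, y i)
      ≤ (1 / (k : ℝ)) * ∑ i, (α i / 9 + 5 / 9 * (1 - α i)) := by
  have hK : (0 : ℝ) < k := by exact_mod_cast hk
  set Y := (1 / (k : ℝ)) * ∑ i, y i with hY
  have h1 : ∀ i, y i * (1 - y i) ≤ (1 - α i) / 9 + (y i - α i) / 3 := by
    intro i
    rcases hα i with h | ⟨h, h'⟩
    · rw [h]
      nlinarith [sq_nonneg (y i - 1 / 3)]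
    · rw [h, h']
      norm_num
  have h2 : Y * (1 - Y) ≤ 4 / 9 - Y / 3 := by
    nlinarith [sq_nonneg (Y - 2 / 3)]
  have h3 : ∑ i, y i * (1 - y i) ≤ ∑ i, ((1 - α i) / 9 + (y i - α i) / 3) :=
    Finset.sum_le_sum fun i _ => h1 i
  have h4 : (1 / (k : ℝ)) * ∑ i, y i * (1 - y i)
      ≤ (1 / (k : ℝ)) * ∑ i, ((1 - α i) / 9 + (y i - α i) / 3) :=
    mul_le_mul_of_nonneg_left h3 (by positivity)
  have h5 : (1 / (k : ℝ)) * ∑ i, (α i / 9 + 5 / 9 * (1 - α i))
      = (1 / (k : ℝ)) * ∑ i, ((1 - α i) / 9 + (y i - α i) / 3) + 4 / 9 - Y / 3 := by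
    have h6 : ∑ i, (α i / 9 + 5 / 9 * (1 - α i))
        = ∑ i, ((1 - α i) / 9 + (y i - α i) / 3) + (k : ℝ) * (4 / 9) - (∑ i, y i) / 3 := by
      have : (k : ℝ) * (4 / 9) = ∑ _i : Fin k, ((4 : ℝ) / 9) := by simp
      rw [this, Finset.sum_div, ← Finset.sum_add_distrib, ← Finset.sum_sub_distrib]
      refine Finset.sum_congr rfl fun i _ => ?_
      ring
    rw [h6, hY]
    field_simp
    ring_nf
  rw [h5]
  linarith

/-- parity of crossings along a chain of four `0/1` steps -/
theorem chain_parity {a b c d e : ℝ} (ha : a = 0 ∨ a = 1) (hb : b = 0 ∨ b = 1)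
    (hc : c = 0 ∨ c = 1) (hd : d = 0 ∨ d = 1) (he : e = 0 ∨ e = 1) :
    |a - b| + |b - c| + |c - d| + |d - e| - |a - e| = 0 ∨
      2 ≤ |a - b| + |b - c| + |c - d| + |d - e| - |a - e| := by
  rcases ha with rfl | rfl <;> rcases hb with rfl | rfl <;> rcases hc with rfl | rfl <;>
    rcases hd with rfl | rfl <;> rcases he with rfl | rfl <;> norm_num

section Hub

variable {k f : ℕ}

/-- the weighted pair sum, in closed form -/
theorem hub_R (hk : 0 < k) (hf : 0 < f) (M : Fin k → Fin f → ℝ)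
    (hM : ∀ i j, M i j = 0 ∨ M i j = 1) :
    (∑ i, ∑ j, ∑ j', 1 / (2 * (k : ℝ) * f ^ 2) * |M i j - M i j'|)
        + (∑ q : Fin k × Fin f, ∑ q' : Fin k × Fin f,
            1 / (2 * (k : ℝ) ^ 2 * f ^ 2) * |M q.1 q.2 - M q'.1 q'.2|)
      = (1 / (k : ℝ)) * ∑ i, ((∑ j, M i j) / f) * (1 - (∑ j, M i j) / f)
        + ((1 / (k : ℝ)) * ∑ i, (∑ j, M i j) / f)
            * (1 - (1 / (k : ℝ)) * ∑ i, (∑ j, M i j) / f) := by
  have hK : (0 : ℝ) < k := by exact_mod_cast hk
  have hF : (0 : ℝ) < f := by exact_mod_cast hf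
  have h1 : ∀ i, ∑ j, ∑ j', 1 / (2 * (k : ℝ) * f ^ 2) * |M i j - M i j'|
      = (1 / (k : ℝ)) * (((∑ j, M i j) / f) * (1 - (∑ j, M i j) / f)) := by
    intro i
    simp_rw [← Finset.mul_sum]
    rw [pairs_abs (M i) (hM i), Fintype.card_fin]
    field_simp
  have h2 : ∑ q : Fin k × Fin f, ∑ q' : Fin k × Fin f,
        1 / (2 * (k : ℝ) ^ 2 * f ^ 2) * |M q.1 q.2 - M q'.1 q'.2|
      = ((1 / (k : ℝ)) * ∑ i, (∑ j, M i j) / f)
            * (1 - (1 / (k : ℝ)) * ∑ i, (∑ j, M i j) / f) := by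
    simp_rw [← Finset.mul_sum]
    rw [pairs_abs (fun q : Fin k × Fin f => M q.1 q.2) (fun q => hM q.1 q.2)]
    rw [Fintype.sum_prod_type, ← Finset.sum_div]
    simp only [Fintype.card_prod, Fintype.card_fin, Nat.cast_mul]
    field_simp
  rw [h2]
  simp_rw [h1]
  rw [← Finset.mul_sum]

/-- the tight case: all chains are crossed exactly once, source `0`, sink `1` -/
theorem hub_tight (hk : 0 < k) (hf : 0 < f) (X : ℝ) (A B : Fin k → ℝ) (M : Fin k → Fin f → ℝ)
    (hX : X = 0 ∨ X = 1) (hA : ∀ i, A i = 0 ∨ A i = 1) (hB : ∀ i, B i = 0 ∨ B i = 1)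
    (hM : ∀ i j, M i j = 0 ∨ M i j = 1)
    (htA : ∀ i, |0 - A i| + |A i - X| + |X - B i| + |B i - 1| = 1)
    (htB : ∀ i j, |0 - A i| + |A i - M i j| + |M i j - B i| + |B i - 1| = 1) :
    (∑ i, ∑ j, ∑ j', 1 / (2 * (k : ℝ) * f ^ 2) * |M i j - M i j'|)
        + (∑ q : Fin k × Fin f, ∑ q' : Fin k × Fin f,
            1 / (2 * (k : ℝ) ^ 2 * f ^ 2) * |M q.1 q.2 - M q'.1 q'.2|)
      ≤ ∑ i, 1 / (9 * (k : ℝ)) * (|0 - A i| + |B i - 1|)
        + ∑ i, ∑ j, 5 / (9 * (k : ℝ) * f) * (|A i - M i j| + |M i j - B i|) := by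
  have hK : (0 : ℝ) < k := by exact_mod_cast hk
  have hF : (0 : ℝ) < f := by exact_mod_cast hf
  rw [hub_R hk hf M hM]
  rcases hX with rfl | rfl
  · -- hub on the source side
    have hA0 : ∀ i, A i = 0 := by
      intro i
      have := htA i
      rcases hA i with h | h
      · exact h
      · rcases hB i with h' | h' <;> rw [h, h'] at this <;> norm_num at this
    have hMB : ∀ i j, |A i - M i j| + |M i j - B i| = B i := by
      intro i j
      have := htB i j
      rw [hA0 i] at this ⊢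
      rcases hB i with h' | h' <;> rcases hM i j with h'' | h'' <;> rw [h', h''] at this ⊢ <;>
        (try norm_num at this) <;> (try norm_num)
    have hB1 : ∀ i, |0 - A i| + |B i - 1| = 1 - B i := by
      intro i
      rw [hA0 i]
      rcases hB i with h' | h' <;> rw [h'] <;> norm_num
    have hcp : ∑ i, 1 / (9 * (k : ℝ)) * (|0 - A i| + |B i - 1|)
          + ∑ i, ∑ j, 5 / (9 * (k : ℝ) * f) * (|A i - M i j| + |M i j - B i|)
        = (1 / (k : ℝ)) * ∑ i, ((1 - B i) / 9 + 5 / 9 * (1 - (1 - B i))) := by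
      simp_rw [hMB, hB1]
      simp only [Finset.sum_const, Finset.card_univ, Fintype.card_fin, nsmul_eq_mul]
      rw [← Finset.sum_add_distrib, Finset.mul_sum]
      refine Finset.sum_congr rfl fun i _ => ?_
      field_simp
      try ring
    rw [hcp]
    have hcore := core_tangent hk (fun i => 1 - B i) (fun i => 1 - (∑ j, M i j) / f) (by
      intro i
      rcases hB i with h' | h'
      · right
        refine ⟨by simp [h'], ?_⟩
        have h0 : ∀ j, M i j = 0 := by
          intro j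
          have := hMB i j
          rw [hA0 i, h'] at this
          rcases hM i j with h'' | h'' <;> rw [h''] at this ⊢ <;> norm_num at this
        simp [h0]
      · left
        simp [h'])
    have e1 : ∀ i, (1 - (∑ j, M i j) / f) * (1 - (1 - (∑ j, M i j) / f))
        = ((∑ j, M i j) / f) * (1 - (∑ j, M i j) / f) := fun i => by ring
    simp_rw [e1] at hcore
    have e2 : (1 / (k : ℝ)) * ∑ i, (1 - (∑ j, M i j) / f)
        = 1 - (1 / (k : ℝ)) * ∑ i, (∑ j, M i j) / f := by
      rw [Finset.sum_sub_distrib]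
      simp only [Finset.sum_const, Finset.card_univ, Fintype.card_fin, nsmul_eq_mul, mul_one]
      field_simp
    rw [e2] at hcore
    have e3 : ∀ Y : ℝ, (1 - Y) * (1 - (1 - Y)) = Y * (1 - Y) := fun Y => by ring
    rw [e3] at hcore
    exact hcore
  · -- hub on the sink side
    have hB1 : ∀ i, B i = 1 := by
      intro i
      have := htA i
      rcases hB i with h | h
      · rcases hA i with h' | h' <;> rw [h, h'] at this <;> norm_num at this
      · exact h
    have hMB : ∀ i j, |A i - M i j| + |M i j - B i| = 1 - A i := by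
      intro i j
      have := htB i j
      rw [hB1 i] at this ⊢
      rcases hA i with h' | h' <;> rcases hM i j with h'' | h'' <;> rw [h', h''] at this ⊢ <;>
        (try norm_num at this) <;> (try norm_num)
    have hB2 : ∀ i, |0 - A i| + |B i - 1| = A i := by
      intro i
      rw [hB1 i]
      rcases hA i with h' | h' <;> rw [h'] <;> norm_num
    have hcp : ∑ i, 1 / (9 * (k : ℝ)) * (|0 - A i| + |B i - 1|)
          + ∑ i, ∑ j, 5 / (9 * (k : ℝ) * f) * (|A i - M i j| + |M i j - B i|)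
        = (1 / (k : ℝ)) * ∑ i, (A i / 9 + 5 / 9 * (1 - A i)) := by
      simp_rw [hMB, hB2]
      simp only [Finset.sum_const, Finset.card_univ, Fintype.card_fin, nsmul_eq_mul]
      rw [← Finset.sum_add_distrib, Finset.mul_sum]
      refine Finset.sum_congr rfl fun i _ => ?_
      field_simp
      try ring
    rw [hcp]
    exact core_tangent hk A (fun i => (∑ j, M i j) / f) (by
      intro i
      rcases hA i with h' | h'
      · left
        exact h'
      · right
        refine ⟨h', ?_⟩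
        have h1 : ∀ j, M i j = 1 := by
          intro j
          have := hMB i j
          rw [h', hB1 i] at this
          rcases hM i j with h'' | h'' <;> rw [h''] at this ⊢ <;> norm_num at this
        have h2 : (∑ j, M i j) = (f : ℝ) := by simp [h1]
        show (∑ j, M i j) / f = 1
        rw [h2]
        exact div_self hF.ne')

theorem hub_real (hk : 0 < k) (hf : 0 < f) (S T X : ℝ) (A B : Fin k → ℝ) (M : Fin k → Fin f → ℝ)
    (hS : S = 0 ∨ S = 1) (hT : T = 0 ∨ T = 1)
    (hX : X = 0 ∨ X = 1) (hA : ∀ i, A i = 0 ∨ A i = 1) (hB : ∀ i, B i = 0 ∨ B i = 1)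
    (hM : ∀ i j, M i j = 0 ∨ M i j = 1) :
    (∑ i, ∑ j, ∑ j', 1 / (2 * (k : ℝ) * f ^ 2) * |M i j - M i j'|)
        + (∑ q : Fin k × Fin f, ∑ q' : Fin k × Fin f,
            1 / (2 * (k : ℝ) ^ 2 * f ^ 2) * |M q.1 q.2 - M q'.1 q'.2|)
        + (k : ℝ) * f * |S - T|
      ≤ ∑ i, ((1 / (9 * (k : ℝ)) + f) * |S - A i| + (f : ℝ) / 2 * |A i - X|
            + (f : ℝ) / 2 * |X - B i| + (1 / (9 * (k : ℝ)) + f) * |B i - T|)
        + ∑ i, ∑ j, ((5 / (9 * (k : ℝ) * f) + 1 / 2) * |A i - M i j|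
            + (5 / (9 * (k : ℝ) * f) + 1 / 2) * |M i j - B i|) := by
  have hK : (0 : ℝ) < k := by exact_mod_cast hk
  have hF : (0 : ℝ) < f := by exact_mod_cast hf
  have hF1 : (1 : ℝ) ≤ f := by exact_mod_cast hf
  set R := (∑ i, ∑ j, ∑ j', 1 / (2 * (k : ℝ) * f ^ 2) * |M i j - M i j'|)
        + (∑ q : Fin k × Fin f, ∑ q' : Fin k × Fin f,
            1 / (2 * (k : ℝ) ^ 2 * f ^ 2) * |M q.1 q.2 - M q'.1 q'.2|) with hR
  -- the bound on the pair sum
  have hR1 : R ≤ 1 := by
    rw [hR, hub_R hk hf M hM]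
    have h1 : ∑ i, ((∑ j, M i j) / f) * (1 - (∑ j, M i j) / f) ≤ ∑ _i : Fin k, (1 : ℝ) / 4 :=
      Finset.sum_le_sum fun i _ => by
        nlinarith [sq_nonneg ((∑ j, M i j) / f - 1 / 2)]
    have h2 : (1 / (k : ℝ)) * ∑ i, ((∑ j, M i j) / f) * (1 - (∑ j, M i j) / f)
        ≤ (1 / (k : ℝ)) * ∑ _i : Fin k, (1 : ℝ) / 4 :=
      mul_le_mul_of_nonneg_left h1 (by positivity)
    have h3 : (1 / (k : ℝ)) * ∑ _i : Fin k, (1 : ℝ) / 4 = 1 / 4 := by
      simp
      field_simp
    nlinarith [sq_nonneg ((1 / (k : ℝ)) * ∑ i, (∑ j, M i j) / f - 1 / 2)]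
  -- chain excesses
  set exA : Fin k → ℝ := fun i => |S - A i| + |A i - X| + |X - B i| + |B i - T| - |S - T| with hexA
  set exB : Fin k → Fin f → ℝ :=
    fun i j => |S - A i| + |A i - M i j| + |M i j - B i| + |B i - T| - |S - T| with hexB
  have pA : ∀ i, exA i = 0 ∨ 2 ≤ exA i := fun i => chain_parity hS (hA i) hX (hB i) hT
  have pB : ∀ i j, exB i j = 0 ∨ 2 ≤ exB i j := fun i j =>
    chain_parity hS (hA i) (hM i j) (hB i) hT
  have nA : ∀ i, 0 ≤ exA i := fun i => by
    rcases pA i with h | h <;> linarith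
  have nB : ∀ i j, 0 ≤ exB i j := fun i j => by
    rcases pB i j with h | h <;> linarith
  set CP := ∑ i, 1 / (9 * (k : ℝ)) * (|S - A i| + |B i - T|)
        + ∑ i, ∑ j, 5 / (9 * (k : ℝ) * f) * (|A i - M i j| + |M i j - B i|) with hCP
  have hCP0 : 0 ≤ CP := by
    refine add_nonneg (Finset.sum_nonneg fun i _ => by positivity)
      (Finset.sum_nonneg fun i _ => Finset.sum_nonneg fun j _ => by positivity)
  -- the decomposition
  have hdec : ∑ i, ((1 / (9 * (k : ℝ)) + f) * |S - A i| + (f : ℝ) / 2 * |A i - X|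
            + (f : ℝ) / 2 * |X - B i| + (1 / (9 * (k : ℝ)) + f) * |B i - T|)
        + ∑ i, ∑ j, ((5 / (9 * (k : ℝ) * f) + 1 / 2) * |A i - M i j|
            + (5 / (9 * (k : ℝ) * f) + 1 / 2) * |M i j - B i|)
      = (k : ℝ) * f * |S - T| + CP + ∑ i, (f : ℝ) / 2 * exA i
        + ∑ i, ∑ j, (1 : ℝ) / 2 * exB i j := by
    have hbr : ∀ i, ((1 / (9 * (k : ℝ)) + f) * |S - A i| + (f : ℝ) / 2 * |A i - X|
            + (f : ℝ) / 2 * |X - B i| + (1 / (9 * (k : ℝ)) + f) * |B i - T|)
          + ∑ j, ((5 / (9 * (k : ℝ) * f) + 1 / 2) * |A i - M i j|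
            + (5 / (9 * (k : ℝ) * f) + 1 / 2) * |M i j - B i|)
        = (f : ℝ) * |S - T| + 1 / (9 * (k : ℝ)) * (|S - A i| + |B i - T|)
          + ∑ j, 5 / (9 * (k : ℝ) * f) * (|A i - M i j| + |M i j - B i|)
          + (f : ℝ) / 2 * exA i + ∑ j, (1 : ℝ) / 2 * exB i j := by
      intro i
      set Q := ∑ j, (|A i - M i j| + |M i j - B i|) with hQ
      have e1 : ∑ j, ((5 / (9 * (k : ℝ) * f) + 1 / 2) * |A i - M i j|
            + (5 / (9 * (k : ℝ) * f) + 1 / 2) * |M i j - B i|)
          = (5 / (9 * (k : ℝ) * f) + 1 / 2) * Q := by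
        rw [hQ, Finset.mul_sum]
        exact Finset.sum_congr rfl fun j _ => by ring
      have e2 : ∑ j, 5 / (9 * (k : ℝ) * f) * (|A i - M i j| + |M i j - B i|)
          = 5 / (9 * (k : ℝ) * f) * Q := by
        rw [hQ, Finset.mul_sum]
      have e3 : ∑ j, (1 : ℝ) / 2 * exB i j
          = (f : ℝ) / 2 * (|S - A i| + |B i - T| - |S - T|) + 1 / 2 * Q := by
        have : ∀ j, (1 : ℝ) / 2 * exB i j = (1 : ℝ) / 2 * (|S - A i| + |B i - T| - |S - T|)
            + 1 / 2 * (|A i - M i j| + |M i j - B i|) := fun j => by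
          simp only [hexB]
          ring
        simp_rw [this]
        rw [Finset.sum_add_distrib, hQ, Finset.mul_sum]
        simp only [Finset.sum_const, Finset.card_univ, Fintype.card_fin, nsmul_eq_mul]
        rw [← Finset.mul_sum]
        ring
      rw [e1, e2, e3]
      simp only [hexA]
      ring
    rw [← Finset.sum_add_distrib]
    simp_rw [hbr]
    rw [Finset.sum_add_distrib, Finset.sum_add_distrib, Finset.sum_add_distrib,
      Finset.sum_add_distrib, hCP]
    simp only [Finset.sum_const, Finset.card_univ, Fintype.card_fin, nsmul_eq_mul]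
    ring
  rw [hdec]
  have sA : 0 ≤ ∑ i, (f : ℝ) / 2 * exA i :=
    Finset.sum_nonneg fun i _ => mul_nonneg (by positivity) (nA i)
  have sB : 0 ≤ ∑ i, ∑ j, (1 : ℝ) / 2 * exB i j :=
    Finset.sum_nonneg fun i _ => Finset.sum_nonneg fun j _ => mul_nonneg (by norm_num) (nB i j)
  by_cases c1 : ∃ i, exA i ≠ 0
  · obtain ⟨i0, hi0⟩ := c1
    have h2 : 2 ≤ exA i0 := (pA i0).resolve_left hi0
    have h3 : (f : ℝ) / 2 * exA i0 ≤ ∑ i, (f : ℝ) / 2 * exA i :=
      Finset.single_le_sum (f := fun i => (f : ℝ) / 2 * exA i)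
        (fun i _ => mul_nonneg (by positivity) (nA i)) (Finset.mem_univ i0)
    have h4 : (f : ℝ) ≤ (f : ℝ) / 2 * exA i0 := by nlinarith
    linarith
  by_cases c2 : ∃ i j, exB i j ≠ 0
  · obtain ⟨i0, j0, hi0⟩ := c2
    have h2 : 2 ≤ exB i0 j0 := (pB i0 j0).resolve_left hi0
    have h3 : (1 : ℝ) / 2 * exB i0 j0 ≤ ∑ j, (1 : ℝ) / 2 * exB i0 j :=
      Finset.single_le_sum (f := fun j => (1 : ℝ) / 2 * exB i0 j)
        (fun j _ => mul_nonneg (by norm_num) (nB i0 j)) (Finset.mem_univ j0)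
    have h4 : ∑ j, (1 : ℝ) / 2 * exB i0 j ≤ ∑ i, ∑ j, (1 : ℝ) / 2 * exB i j :=
      Finset.single_le_sum (f := fun i => ∑ j, (1 : ℝ) / 2 * exB i j)
        (fun i _ => Finset.sum_nonneg fun j _ => mul_nonneg (by norm_num) (nB i j))
        (Finset.mem_univ i0)
    linarith
  simp only [not_exists, ne_eq, not_not] at c1 c2
  have tA : ∀ i, |S - A i| + |A i - X| + |X - B i| + |B i - T| = |S - T| := fun i => by
    have := c1 i
    simp only [hexA] at this
    linarith
  have tB : ∀ i j, |S - A i| + |A i - M i j| + |M i j - B i| + |B i - T| = |S - T| := fun i j => by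
    have := c2 i j
    simp only [hexB] at this
    linarith
  have key : R ≤ CP := by
    rcases hS with rfl | rfl <;> rcases hT with rfl | rfl
    · -- both zero
      have h0 : ∀ i j, M i j = 0 := by
        intro i j
        have h1 := tB i j
        have h2 := abs_nonneg ((0 : ℝ) - A i)
        have h3 := abs_nonneg (A i - M i j)
        have h4 := abs_nonneg (M i j - B i)
        have h5 := abs_nonneg (B i - 0)
        simp only [sub_self, abs_zero] at h1
        have h6 : |(0 : ℝ) - A i| = 0 := by linarith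
        have h7 : |A i - M i j| = 0 := by linarith
        have h8 := abs_eq_zero.mp h6
        have h9 := abs_eq_zero.mp h7
        linarith
      have : R = 0 := by
        rw [hR]
        simp [h0]
      rw [this]
      exact hCP0
    · have e0 : |(0 : ℝ) - 1| = 1 := by norm_num
      rw [e0] at tA tB
      exact hub_tight hk hf X A B M hX hA hB hM tA tB
    · -- source one, sink zero: complement
      have e0 : |(1 : ℝ) - 0| = 1 := by norm_num
      rw [e0] at tA tB
      have e1 : ∀ a b : ℝ, |(1 - a) - (1 - b)| = |a - b| := fun a b => by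
        rw [show (1 - a) - (1 - b) = b - a by ring, abs_sub_comm]
      have e2 : ∀ a : ℝ, |(0 : ℝ) - (1 - a)| = |1 - a| := fun a => by
        rw [show (0 : ℝ) - (1 - a) = -(1 - a) by ring, abs_neg]
      have e3 : ∀ a : ℝ, |(1 - a) - 1| = |a - 0| := fun a => by
        rw [show (1 - a) - 1 = -(a - 0) by ring, abs_neg]
      have f01 : ∀ a : ℝ, a = 0 ∨ a = 1 → 1 - a = 0 ∨ 1 - a = 1 := fun a ha => by
        rcases ha with rfl | rfl <;> norm_num
      have := hub_tight hk hf (1 - X) (fun i => 1 - A i) (fun i => 1 - B i)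
        (fun i j => 1 - M i j) (f01 _ hX) (fun i => f01 _ (hA i)) (fun i => f01 _ (hB i))
        (fun i j => f01 _ (hM i j))
        (fun i => by
          simp only [e1, e2, e3]
          exact tA i)
        (fun i j => by
          simp only [e1, e2, e3]
          exact tB i j)
      simp only [e1, e2, e3] at this
      exact this
    · -- both one
      have h0 : ∀ i j, M i j = 1 := by
        intro i j
        have h1 := tB i j
        have h2 := abs_nonneg ((1 : ℝ) - A i)
        have h3 := abs_nonneg (A i - M i j)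
        have h4 := abs_nonneg (M i j - B i)
        have h5 := abs_nonneg (B i - 1)
        simp only [sub_self, abs_zero] at h1
        have h6 : |(1 : ℝ) - A i| = 0 := by linarith
        have h7 : |A i - M i j| = 0 := by linarith
        have h8 := abs_eq_zero.mp h6
        have h9 := abs_eq_zero.mp h7
        linarith
      have : R = 0 := by
        rw [hR]
        simp [h0]
      rw [this]
      exact hCP0
  linarith

end Hub

end Vale.Agent.Lib.P235
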