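import Vale.Agent.Lib.P235.TreeDec
import Vale.Agent.Lib.P235.HubIneq

open MeasureTheory

namespace Vale.Agent.Lib.P235

noncomputable instance instFintypeIntV {I E : Type} [Fintype I] [Fintype E] :
    ∀ n, Fintype (IntV I E n)
  | 0 => inferInstanceAs (Fintype Empty)
  | n + 1 =>
    letI := instFintypeIntV (I := I) (E := E) n
    inferInstanceAs (Fintype (I ⊕ (E × IntV I E n)))

/-- interior vertices of the gadget: the hub, `a i`, `b i`, and `m i j` -/
abbrev HI (k f : ℕ) : Type := Unit ⊕ (Fin k ⊕ Fin k) ⊕ (Fin k × Fin f)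
/-- edges of the gadget -/
abbrev HE (k f : ℕ) : Type := (Fin k × Bool × Bool) ⊕ (Fin k × Fin f × Bool)
/-- weighted pairs of the gadget -/
abbrev HP (k f : ℕ) : Type := (Fin k × Fin f × Fin f) ⊕ ((Fin k × Fin f) × (Fin k × Fin f))

variable {k f : ℕ}

def vS : Bool ⊕ HI k f := Sum.inl false
def vT : Bool ⊕ HI k f := Sum.inl true
def vX : Bool ⊕ HI k f := Sum.inr (Sum.inl ())
def vA (i : Fin k) : Bool ⊕ HI k f := Sum.inr (Sum.inr (Sum.inl (Sum.inl i)))
def vB (i : Fin k) : Bool ⊕ HI k f := Sum.inr (Sum.inr (Sum.inl (Sum.inr i)))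
def vM (i : Fin k) (j : Fin f) : Bool ⊕ HI k f := Sum.inr (Sum.inr (Sum.inr (i, j)))

def hTail : HE k f → Bool ⊕ HI k f
  | Sum.inl (_, false, false) => vS
  | Sum.inl (i, false, true) => vA i
  | Sum.inl (_, true, false) => vX
  | Sum.inl (i, true, true) => vB i
  | Sum.inr (i, _, false) => vA i
  | Sum.inr (i, j, true) => vM i j

def hHead : HE k f → Bool ⊕ HI k f
  | Sum.inl (i, false, false) => vA i
  | Sum.inl (_, false, true) => vX
  | Sum.inl (i, true, false) => vB i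
  | Sum.inl (_, true, true) => vT
  | Sum.inr (i, j, false) => vM i j
  | Sum.inr (i, _, true) => vB i

noncomputable def hFe : HE k f → ℝ
  | Sum.inl (_, false, false) => 1 / (9 * (k : ℝ)) + f
  | Sum.inl (_, false, true) => (f : ℝ) / 2
  | Sum.inl (_, true, false) => (f : ℝ) / 2
  | Sum.inl (_, true, true) => 1 / (9 * (k : ℝ)) + f
  | Sum.inr _ => 5 / (9 * (k : ℝ) * f) + 1 / 2

noncomputable def hPw : HP k f → ℝ
  | Sum.inl _ => 1 / (2 * (k : ℝ) * f ^ 2)
  | Sum.inr _ => 1 / (2 * (k : ℝ) ^ 2 * f ^ 2)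

def hPL : HP k f → Bool ⊕ HI k f
  | Sum.inl (i, j, _) => vM i j
  | Sum.inr (q, _) => vM q.1 q.2

def hPR : HP k f → Bool ⊕ HI k f
  | Sum.inl (i, _, j') => vM i j'
  | Sum.inr (_, q') => vM q'.1 q'.2

def hHt : Bool ⊕ HI k f → ℤ
  | Sum.inl false => 0
  | Sum.inl true => 4
  | Sum.inr (Sum.inl _) => 2
  | Sum.inr (Sum.inr (Sum.inl (Sum.inl _))) => 1
  | Sum.inr (Sum.inr (Sum.inl (Sum.inr _))) => 3
  | Sum.inr (Sum.inr (Sum.inr _)) => 2

/-- potential for two middle vertices of one branch -/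
def phi1 (i : Fin k) (j j' : Fin f) : Bool ⊕ HI k f → ℤ
  | Sum.inr (Sum.inr (Sum.inr (l, n))) =>
    (if l = i ∧ n = j then 1 else 0) - (if l = i ∧ n = j' then 1 else 0)
  | _ => 0

/-- potential for two middle vertices of different branches -/
def phi2 (q q' : Fin k × Fin f) : Bool ⊕ HI k f → ℤ
  | Sum.inr (Sum.inr (Sum.inl (Sum.inl l))) =>
    if q.1 = q'.1 then 0 else (if l = q.1 then 1 else 0) - (if l = q'.1 then 1 else 0)
  | Sum.inr (Sum.inr (Sum.inl (Sum.inr l))) =>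
    if q.1 = q'.1 then 0 else (if l = q.1 then 1 else 0) - (if l = q'.1 then 1 else 0)
  | Sum.inr (Sum.inr (Sum.inr (l, n))) =>
    if q.1 = q'.1 then 0 else
      (if (l, n) = q then 2 else 0) - (if (l, n) = q' then 2 else 0)
  | _ => 0

def hPhi : HP k f → Bool ⊕ HI k f → ℤ
  | Sum.inl (i, j, j') => phi1 i j j'
  | Sum.inr (q, q') => phi2 q q'

theorem hne_hub (e : HE k f) : hTail e ≠ hHead e := by
  rcases e with ⟨i, a, b⟩ | ⟨i, j, b⟩
  · cases a <;> cases b <;> simp [hTail, hHead, vS, vT, vX, vA, vB]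
  · cases b <;> simp [hTail, hHead, vA, vB, vM]

theorem hstep_hub (e : HE k f) : hHt (hHead e) = hHt (hTail e) + 1 := by
  rcases e with ⟨i, a, b⟩ | ⟨i, j, b⟩
  · cases a <;> cases b <;> simp [hTail, hHead, vS, vT, vX, vA, vB, hHt]
  · cases b <;> simp [hTail, hHead, vA, vB, vM, hHt]

theorem hfe_nonneg (e : HE k f) : 0 ≤ hFe e := by
  rcases e with ⟨i, a, b⟩ | ⟨i, j, b⟩
  · cases a <;> cases b <;> simp only [hFe] <;> positivity
  · simp only [hFe]
    positivity

theorem hpw_nonneg (p : HP k f) : 0 ≤ hPw p := by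
  rcases p with p | p <;> simp only [hPw] <;> positivity

theorem hphi_s (p : HP k f) : hPhi p (Sum.inl false) = 0 := by
  rcases p with ⟨i, j, j'⟩ | ⟨q, q'⟩ <;> rfl

theorem hphi_t (p : HP k f) : hPhi p (Sum.inl true) = 0 := by
  rcases p with ⟨i, j, j'⟩ | ⟨q, q'⟩ <;> rfl

theorem aux_m (l n i j i' j') (hii : i ≠ i') :
    |(((if ((l, n) : Fin k × Fin f) = (i, j) then 2 else 0)
        - (if ((l, n) : Fin k × Fin f) = (i', j') then 2 else 0) : ℤ))
      - ((if l = i then 1 else 0) - (if l = i' then 1 else 0))| ≤ 1 := by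
  by_cases h1 : l = i
  · subst h1
    by_cases h3 : n = j
    · subst h3
      simp [hii]
    · simp [hii, h3]
  · by_cases h2 : l = i'
    · subst h2
      by_cases h4 : n = j'
      · subst h4
        simp [h1]
      · simp [h1, h4]
    · simp [h1, h2]

theorem hphi_lip (p : HP k f) (e : HE k f) : |hPhi p (hHead e) - hPhi p (hTail e)| ≤ 1 := by
  rcases p with ⟨i, j, j'⟩ | ⟨⟨i, j⟩, ⟨i', j'⟩⟩
  · rcases e with ⟨l, a, b⟩ | ⟨l, n, b⟩
    · cases a <;> cases b <;> simp [hTail, hHead, hPhi, phi1, vS, vT, vX, vA, vB]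
    · cases b <;> simp only [hTail, hHead, hPhi, phi1, vA, vB, vM] <;> split_ifs <;> norm_num
  · by_cases hii : i = i'
    · subst hii
      rcases e with ⟨l, a, b⟩ | ⟨l, n, b⟩
      · cases a <;> cases b <;> simp [hTail, hHead, hPhi, phi2, vS, vT, vX, vA, vB]
      · cases b <;> simp [hTail, hHead, hPhi, phi2, vA, vB, vM]
    · rcases e with ⟨l, a, b⟩ | ⟨l, n, b⟩
      · cases a <;> cases b <;>
          simp only [hTail, hHead, hPhi, phi2, vS, vT, vX, vA, vB, if_neg hii] <;>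
          split_ifs <;> norm_num
      · have := aux_m l n i j i' j' hii
        cases b
        · simpa only [hTail, hHead, hPhi, phi2, vA, vB, vM, if_neg hii] using this
        · simp only [hTail, hHead, hPhi, phi2, vA, vB, vM, if_neg hii]
          rw [abs_sub_comm]
          exact this

theorem edge_sum (u : Bool ⊕ HI k f → ℝ) :
    ∑ e, hFe e * |u (hTail e) - u (hHead e)|
      = ∑ i, ((1 / (9 * (k : ℝ)) + f) * |u vS - u (vA i)| + (f : ℝ) / 2 * |u (vA i) - u vX|
            + (f : ℝ) / 2 * |u vX - u (vB i)| + (1 / (9 * (k : ℝ)) + f) * |u (vB i) - u vT|)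
        + ∑ i, ∑ j, ((5 / (9 * (k : ℝ) * f) + 1 / 2) * |u (vA i) - u (vM i j)|
            + (5 / (9 * (k : ℝ) * f) + 1 / 2) * |u (vM i j) - u (vB i)|) := by
  rw [Fintype.sum_sum_type]
  congr 1
  · rw [Fintype.sum_prod_type]
    refine Finset.sum_congr rfl fun i _ => ?_
    rw [Fintype.sum_prod_type]
    simp only [Fintype.sum_bool, hFe, hTail, hHead]
    ring
  · rw [Fintype.sum_prod_type]
    refine Finset.sum_congr rfl fun i _ => ?_
    rw [Fintype.sum_prod_type]
    refine Finset.sum_congr rfl fun j _ => ?_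
    simp only [Fintype.sum_bool, hFe, hTail, hHead]
    ring

theorem pair_sum (u : Bool ⊕ HI k f → ℝ) :
    ∑ p, hPw p * |u (hPL p) - u (hPR p)|
      = (∑ i, ∑ j, ∑ j', 1 / (2 * (k : ℝ) * f ^ 2) * |u (vM i j) - u (vM i j')|)
        + (∑ q : Fin k × Fin f, ∑ q' : Fin k × Fin f,
            1 / (2 * (k : ℝ) ^ 2 * f ^ 2) * |u (vM q.1 q.2) - u (vM q'.1 q'.2)|) := by
  rw [Fintype.sum_sum_type]
  congr 1
  · rw [Fintype.sum_prod_type]
    refine Finset.sum_congr rfl fun i _ => ?_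
    rw [Fintype.sum_prod_type]
    rfl
  · rw [Fintype.sum_prod_type]
    rfl

theorem hub_bool (hk : 0 < k) (hf : 0 < f) (χ : Bool ⊕ HI k f → Bool) :
    ∑ p, hPw p * |b01 (χ (hPL p)) - b01 (χ (hPR p))|
        + ((k : ℝ) * f) * |b01 (χ vS) - b01 (χ vT)|
      ≤ ∑ e, hFe e * |b01 (χ (hTail e)) - b01 (χ (hHead e))| := by
  have h1 := edge_sum (fun z => b01 (χ z))
  have h2 := pair_sum (fun z => b01 (χ z))
  rw [h1, h2]
  exact hub_real hk hf _ _ _ _ _ _ (b01_cases _) (b01_cases _) (b01_cases _)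
    (fun _ => b01_cases _) (fun _ => b01_cases _) (fun _ _ => b01_cases _)

theorem hub_base {Ω : Type*} [MeasurableSpace Ω] {μ : Measure Ω} (hk : 0 < k) (hf : 0 < f)
    (g : Bool ⊕ HI k f → Lp ℝ 1 μ) :
    ∑ p, hPw p * ‖g (hPL p) - g (hPR p)‖
        + ((k : ℝ) * f) * ‖g (Sum.inl false) - g (Sum.inl true)‖
      ≤ ∑ e, hFe e * ‖g (hTail e) - g (hHead e)‖ :=
  ineq_Lp hFe hTail hHead hPw hPL hPR _ vS vT (hub_bool hk hf) g

theorem sum_hFe (hk : 0 < k) (hf : 0 < f) :
    ∑ e : HE k f, hFe e = 4 / 3 + 4 * ((k : ℝ) * f) := by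
  have hK : (0 : ℝ) < k := by exact_mod_cast hk
  have hF : (0 : ℝ) < f := by exact_mod_cast hf
  rw [Fintype.sum_sum_type, Fintype.sum_prod_type, Fintype.sum_prod_type]
  have h1 : ∀ i : Fin k, ∑ y : Bool × Bool, hFe (k := k) (f := f) (Sum.inl (i, y))
      = 2 / (9 * (k : ℝ)) + 3 * f := by
    intro i
    rw [Fintype.sum_prod_type]
    simp only [Fintype.sum_bool, hFe]
    ring
  have h2 : ∀ (i : Fin k), ∑ y : Fin f × Bool, hFe (k := k) (f := f) (Sum.inr (i, y))
      = 10 / (9 * (k : ℝ)) + f := by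
    intro i
    rw [Fintype.sum_prod_type]
    simp only [hFe, Finset.sum_const, Finset.card_univ, Fintype.card_fin, Fintype.card_bool,
      nsmul_eq_mul]
    field_simp
    push_cast
    ring
  simp_rw [h1, h2]
  simp only [Finset.sum_const, Finset.card_univ, Fintype.card_fin, nsmul_eq_mul]
  field_simp
  ring

theorem offdiag_sum {J : Type*} [Fintype J] [DecidableEq J] (c : ℝ) (x : J) :
    ∑ y : J, (if x = y then 0 else c) = ((Fintype.card J : ℝ) - 1) * c := by
  have h1 : ∀ y : J, (if x = y then (0 : ℝ) else c) = c - (if x = y then c else 0) := by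
    intro y
    split_ifs <;> simp
  simp_rw [h1]
  rw [Finset.sum_sub_distrib, Finset.sum_ite_eq]
  simp [sub_mul]

theorem val1 (i : Fin k) (j j' : Fin f) :
    phi1 i j j' (vM i j) - phi1 i j j' (vM i j') = if j = j' then 0 else 2 := by
  by_cases h : j = j'
  · subst h
    simp [phi1, vM]
  · simp [phi1, vM, h, Ne.symm h]

theorem val2 (q q' : Fin k × Fin f) :
    phi2 q q' (vM q.1 q.2) - phi2 q q' (vM q'.1 q'.2) = if q.1 = q'.1 then 0 else 4 := by
  by_cases h : q.1 = q'.1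
  · simp [phi2, vM, h]
  · have h1 : q ≠ q' := fun hh => h (by rw [hh])
    simp [phi2, vM, h, h1, Ne.symm h1]

/-- the total weighted distance of the gadget -/
theorem hub_W (hk : 0 < k) (hf : 0 < f) :
    ∑ p, hPw (k := k) (f := f) p * ((hPhi p (hPL p) - hPhi p (hPR p) : ℤ) : ℝ)
      = 3 - 1 / (f : ℝ) - 2 / (k : ℝ) := by
  have hK : (0 : ℝ) < k := by exact_mod_cast hk
  have hF : (0 : ℝ) < f := by exact_mod_cast hf
  rw [Fintype.sum_sum_type]
  have h1 : ∑ x : Fin k × Fin f × Fin f, hPw (k := k) (f := f) (Sum.inl x)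
        * ((hPhi (Sum.inl x) (hPL (Sum.inl x)) - hPhi (Sum.inl x) (hPR (Sum.inl x)) : ℤ) : ℝ)
      = 1 - 1 / (f : ℝ) := by
    rw [Fintype.sum_prod_type]
    have : ∀ i : Fin k, ∑ y : Fin f × Fin f, hPw (k := k) (f := f) (Sum.inl (i, y))
        * ((hPhi (Sum.inl (i, y)) (hPL (Sum.inl (i, y)))
            - hPhi (Sum.inl (i, y)) (hPR (Sum.inl (i, y))) : ℤ) : ℝ)
        = (1 - 1 / (f : ℝ)) / k := by
      intro i
      rw [Fintype.sum_prod_type]
      have h2 : ∀ j : Fin f, ∑ j' : Fin f, hPw (k := k) (f := f) (Sum.inl (i, j, j'))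
          * ((hPhi (Sum.inl (i, j, j')) (hPL (Sum.inl (i, j, j')))
              - hPhi (Sum.inl (i, j, j')) (hPR (Sum.inl (i, j, j'))) : ℤ) : ℝ)
          = ((f : ℝ) - 1) * (2 / (2 * (k : ℝ) * f ^ 2)) := by
        intro j
        have h3 := offdiag_sum (J := Fin f) (2 / (2 * (k : ℝ) * f ^ 2)) j
        rw [Fintype.card_fin] at h3
        rw [← h3]
        refine Finset.sum_congr rfl fun j' _ => ?_
        simp only [hPw, hPhi, hPL, hPR]
        rw [val1]
        split_ifs <;> simp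
        ring
      simp_rw [h2]
      simp only [Finset.sum_const, Finset.card_univ, Fintype.card_fin, nsmul_eq_mul]
      field_simp
    simp_rw [this]
    simp only [Finset.sum_const, Finset.card_univ, Fintype.card_fin, nsmul_eq_mul]
    field_simp
  have h2 : ∑ x : (Fin k × Fin f) × (Fin k × Fin f), hPw (k := k) (f := f) (Sum.inr x)
        * ((hPhi (Sum.inr x) (hPL (Sum.inr x)) - hPhi (Sum.inr x) (hPR (Sum.inr x)) : ℤ) : ℝ)
      = 2 - 2 / (k : ℝ) := by
    rw [Fintype.sum_prod_type]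
    have h3 : ∀ q q' : Fin k × Fin f, hPw (k := k) (f := f) (Sum.inr (q, q'))
        * ((hPhi (Sum.inr (q, q')) (hPL (Sum.inr (q, q')))
            - hPhi (Sum.inr (q, q')) (hPR (Sum.inr (q, q'))) : ℤ) : ℝ)
        = if q.1 = q'.1 then 0 else 4 / (2 * (k : ℝ) ^ 2 * f ^ 2) := by
      intro q q'
      simp only [hPw, hPhi, hPL, hPR]
      rw [val2]
      split_ifs <;> simp
      ring
    simp_rw [h3]
    have h4 : ∀ q : Fin k × Fin f,
        ∑ q' : Fin k × Fin f, (if q.1 = q'.1 then 0 else 4 / (2 * (k : ℝ) ^ 2 * f ^ 2))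
        = ((k : ℝ) - 1) * f * (4 / (2 * (k : ℝ) ^ 2 * f ^ 2)) := by
      intro q
      rw [Fintype.sum_prod_type]
      have h5 : ∀ x : Fin k, ∑ _y : Fin f, (if q.1 = x then 0 else 4 / (2 * (k : ℝ) ^ 2 * f ^ 2))
          = (f : ℝ) * (if q.1 = x then 0 else 4 / (2 * (k : ℝ) ^ 2 * f ^ 2)) := fun x => by
        simp
      simp_rw [h5]
      rw [← Finset.mul_sum, offdiag_sum, Fintype.card_fin]
      ring
    simp_rw [h4]
    simp only [Finset.sum_const, Finset.card_univ, Fintype.card_prod, Fintype.card_fin,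
      nsmul_eq_mul, Nat.cast_mul]
    field_simp
    ring
  rw [h1, h2]
  ring

end Vale.Agent.Lib.P235
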