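import Vale.Agent.Lib.P235.Hub

open MeasureTheory

namespace Vale.Agent.Lib.P235

variable {k f : ℕ}

def hPB : HI k f → HI k f
  | Sum.inl _ => Sum.inl ()
  | Sum.inr (Sum.inl (Sum.inl _)) => Sum.inl ()
  | Sum.inr (Sum.inl (Sum.inr i)) => Sum.inr (Sum.inl (Sum.inl i))
  | Sum.inr (Sum.inr (i, _)) => Sum.inr (Sum.inl (Sum.inr i))

def hRank : HI k f → ℕ
  | Sum.inl _ => 0
  | Sum.inr (Sum.inl (Sum.inl _)) => 1
  | Sum.inr (Sum.inl (Sum.inr _)) => 2
  | Sum.inr (Sum.inr _) => 3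

def hBag : HI k f → Finset (Bool ⊕ HI k f)
  | Sum.inl _ => {vS, vT, vX}
  | Sum.inr (Sum.inl (Sum.inl i)) => {vS, vT, vX, vA i}
  | Sum.inr (Sum.inl (Sum.inr i)) => {vT, vX, vA i, vB i}
  | Sum.inr (Sum.inr (i, j)) => {vA i, vB i, vM i j}

def hTop : Bool ⊕ HI k f → HI k f
  | Sum.inl _ => Sum.inl ()
  | Sum.inr z => z

def hEN : HE k f → HI k f
  | Sum.inl (i, false, _) => Sum.inr (Sum.inl (Sum.inl i))
  | Sum.inl (i, true, _) => Sum.inr (Sum.inl (Sum.inr i))
  | Sum.inr (i, j, _) => Sum.inr (Sum.inr (i, j))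

theorem hRank_lt (u : HI k f) (hu : u ≠ Sum.inl ()) : hRank (hPB u) < hRank u := by
  rcases u with _ | (i | i) | ⟨i, j⟩
  · exact absurd rfl hu
  · simp [hPB, hRank]
  · simp [hPB, hRank]
  · simp [hPB, hRank]

theorem hTop_mem (v : Bool ⊕ HI k f) : v ∈ hBag (hTop v) := by
  rcases v with t | (_ | (i | i) | ⟨i, j⟩)
  · cases t <;> simp [hTop, hBag, vS, vT]
  · simp [hTop, hBag, vX]
  · simp [hTop, hBag, vA]
  · simp [hTop, hBag, vB]
  · simp [hTop, hBag, vM]

theorem hBag_step (v : Bool ⊕ HI k f) (t : HI k f) (hv : v ∈ hBag t) :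
    t = hTop v ∨ (t ≠ Sum.inl () ∧ v ∈ hBag (hPB t)) := by
  rcases t with _ | (i | i) | ⟨i, j⟩
  · left
    simp only [hBag, Finset.mem_insert, Finset.mem_singleton] at hv
    rcases hv with rfl | rfl | rfl <;> rfl
  · simp only [hBag, Finset.mem_insert, Finset.mem_singleton] at hv
    rcases hv with rfl | rfl | rfl | rfl
    · right
      exact ⟨by simp, by simp [hPB, hBag]⟩
    · right
      exact ⟨by simp, by simp [hPB, hBag]⟩
    · right
      exact ⟨by simp, by simp [hPB, hBag]⟩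
    · left
      rfl
  · simp only [hBag, Finset.mem_insert, Finset.mem_singleton] at hv
    rcases hv with rfl | rfl | rfl | rfl
    · right
      exact ⟨by simp, by simp [hPB, hBag]⟩
    · right
      exact ⟨by simp, by simp [hPB, hBag]⟩
    · right
      exact ⟨by simp, by simp [hPB, hBag]⟩
    · left
      rfl
  · simp only [hBag, Finset.mem_insert, Finset.mem_singleton] at hv
    rcases hv with rfl | rfl | rfl
    · right
      exact ⟨by simp, by simp [hPB, hBag]⟩
    · right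
      exact ⟨by simp, by simp [hPB, hBag]⟩
    · left
      rfl

theorem hEN_mem (e : HE k f) : hTail e ∈ hBag (hEN e) ∧ hHead e ∈ hBag (hEN e) := by
  rcases e with ⟨i, a, b⟩ | ⟨i, j, b⟩
  · cases a <;> cases b <;> simp [hEN, hTail, hHead, hBag]
  · cases b <;> simp [hEN, hTail, hHead, hBag]

theorem hBag_card (t : HI k f) : (hBag t).card ≤ 3 + 1 := by
  rcases t with _ | (i | i) | ⟨i, j⟩
  · exact Finset.card_le_three.trans (by norm_num)
  · exact Finset.card_le_four
  · exact Finset.card_le_four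
  · exact Finset.card_le_three.trans (by norm_num)

theorem hub_treewidth (n : ℕ) : TreewidthLE (substG (hTail (k := k) (f := f)) hHead n) 3 :=
  substG_treewidthLE (pB := hPB) (rankB := hRank) (rB := Sum.inl ()) (bagB := hBag) (topB := hTop)
    (eN := hEN) 3 (by norm_num) hRank_lt hTop_mem hBag_step
    (by simp [hBag, vS]) (by simp [hBag, vT]) hEN_mem hBag_card n

theorem base_adj (e : HE k f) : (baseG hTail hHead).Adj (hTail e) (hHead e) :=
  (SimpleGraph.fromRel_adj _ _ _).2 ⟨hne_hub e, Or.inl ⟨e, rfl, rfl⟩⟩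

theorem base_reach (hk : 0 < k) (v : Bool ⊕ HI k f) :
    (baseG hTail hHead).Reachable (Sum.inl false) v := by
  have hA : ∀ i, (baseG (hTail (k := k) (f := f)) hHead).Reachable (Sum.inl false) (vA i) :=
    fun i => (base_adj (Sum.inl (i, false, false))).reachable
  have hX : (baseG (hTail (k := k) (f := f)) hHead).Reachable (Sum.inl false) vX :=
    (hA ⟨0, hk⟩).trans (base_adj (Sum.inl (⟨0, hk⟩, false, true))).reachable
  have hB : ∀ i, (baseG (hTail (k := k) (f := f)) hHead).Reachable (Sum.inl false) (vB i) :=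
    fun i => hX.trans (base_adj (Sum.inl (i, true, false))).reachable
  rcases v with t | (_ | (i | i) | ⟨i, j⟩)
  · cases t
    · exact SimpleGraph.Reachable.refl _
    · exact (hB ⟨0, hk⟩).trans (base_adj (Sum.inl (⟨0, hk⟩, true, true))).reachable
  · exact hX
  · exact hA i
  · exact hB i
  · exact (hA i).trans (base_adj (Sum.inr (i, j, false))).reachable

theorem hub_connected (hk : 0 < k) (n : ℕ) :
    (substG (hTail (k := k) (f := f)) hHead n).Connected :=
  substG_connected hTail hHead hne_hub (base_reach hk) n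

theorem hub_kappa (hk : 0 < k) (hf : 0 < f) :
    ((k : ℝ) * f)⁻¹ * ∑ e : HE k f, hFe e = 4 + (4 / 3) / ((k : ℝ) * f) := by
  have hK : (0 : ℝ) < k := by exact_mod_cast hk
  have hF : (0 : ℝ) < f := by exact_mod_cast hf
  rw [sum_hFe hk hf]
  field_simp
  ring

/-- The quantitative lower bound on the distortion at depth `n`. -/
theorem hub_bound (hk : 0 < k) (hf : 0 < f) (n : ℕ) {Ω : Type*} [MeasurableSpace Ω]
    {μ : Measure Ω} (C : ℝ) (g : Vtx (HI k f) (HE k f) n → Lp ℝ 1 μ)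
    (hg : ∀ x y, ((substG (hTail (k := k) (f := f)) hHead n).dist x y : ℝ) ≤ ‖g x - g y‖ ∧
      ‖g x - g y‖ ≤ C * (substG (hTail (k := k) (f := f)) hHead n).dist x y) :
    (3 / 4 * (3 - 1 / (f : ℝ) - 2 / (k : ℝ)))
        * ((4 + (4 / 3) / ((k : ℝ) * f)) ^ n - 4 ^ n)
      ≤ C * (4 + (4 / 3) / ((k : ℝ) * f)) ^ n := by
  have hK : (0 : ℝ) < k := by exact_mod_cast hk
  have hF : (0 : ℝ) < f := by exact_mod_cast hf
  have := distortion_ge (μ := μ) hTail hHead hFe ((k : ℝ) * f) hPw hPL hPR 4 hHt hPhi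
    (by positivity) hfe_nonneg hpw_nonneg (by norm_num) hne_hub rfl rfl hstep_hub hphi_s hphi_t
    hphi_lip (3 / 4 * (3 - 1 / (f : ℝ) - 2 / (k : ℝ)))
    (by
      rw [hub_kappa hk hf, hub_W hk hf]
      push_cast
      apply le_of_eq
      field_simp
      ring)
    (hub_base hk hf) n (hub_connected hk n) C g hg
  rw [hub_kappa hk hf] at this
  simpa using this

/-- Treewidth three graphs have `L_1` distortion arbitrarily close to `9/4` or more. -/
theorem hub_main.{u} (C : ℝ) (hC : C < 9 / 4) :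
    ∃ (V : Type) (_ : Fintype V) (G : SimpleGraph V), G.Connected ∧ TreewidthLE G 3 ∧
      ∀ (Ω : Type u) (_ : MeasurableSpace Ω) (μ : Measure Ω) (g : V → Lp ℝ 1 μ),
        ¬ ∀ x y, (G.dist x y : ℝ) ≤ ‖g x - g y‖ ∧ ‖g x - g y‖ ≤ C * G.dist x y := by
  set δ : ℝ := (9 / 4 - C) / 2 with hδ
  have hδ0 : 0 < δ := by
    rw [hδ]
    linarith
  obtain ⟨N, hN⟩ := exists_nat_gt (9 / (4 * δ))
  have hNpos : (0 : ℝ) < N := lt_trans (by positivity) hN
  have hN0 : 0 < N := by exact_mod_cast hNpos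
  have hNδ : 9 / (4 * (N : ℝ)) < δ := by
    rw [div_lt_iff₀ (by positivity)] at hN ⊢
    nlinarith
  set κ : ℝ := 4 + (4 / 3) / ((N : ℝ) * N) with hκ
  have hκ4 : 4 < κ := by
    rw [hκ]
    have : 0 < (4 / 3) / ((N : ℝ) * N) := by positivity
    linarith
  have hκ0 : 0 < κ := by linarith
  obtain ⟨n, hn⟩ := exists_pow_lt_of_lt_one (x := δ / (9 / 4)) (y := 4 / κ) (by positivity)
    (by rw [div_lt_one hκ0]; exact hκ4)
  refine ⟨Vtx (HI N N) (HE N N) n, inferInstance, substG hTail hHead n,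
    hub_connected hN0 n, hub_treewidth n, ?_⟩
  intro Ω _ μ g hg
  have h1 := hub_bound hN0 hN0 n C g hg
  rw [← hκ] at h1
  set A : ℝ := 3 / 4 * (3 - 1 / (N : ℝ) - 2 / (N : ℝ)) with hA
  have hA1 : A = 9 / 4 - 9 / (4 * (N : ℝ)) := by
    rw [hA]
    field_simp
    ring
  have hA2 : A ≤ 9 / 4 := by
    rw [hA1]
    have : 0 < 9 / (4 * (N : ℝ)) := by positivity
    linarith
  have hκn : 0 < κ ^ n := by positivity
  have h2 : (4 : ℝ) ^ n = κ ^ n * (4 / κ) ^ n := by
    rw [div_pow]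
    field_simp
  rw [h2] at h1
  have h3 : A * (1 - (4 / κ) ^ n) ≤ C := by
    have h4 : κ ^ n * (A * (1 - (4 / κ) ^ n)) ≤ κ ^ n * C := by
      calc _ = A * (κ ^ n - κ ^ n * (4 / κ) ^ n) := by ring
        _ ≤ C * κ ^ n := h1
        _ = _ := by ring
    exact le_of_mul_le_mul_left h4 hκn
  have hr0 : 0 ≤ (4 / κ) ^ n := by positivity
  have h5 : (4 / κ) ^ n * (9 / 4) < δ := by
    rw [lt_div_iff₀ (by norm_num)] at hn
    exact hn
  have h6 : A * (4 / κ) ^ n ≤ (9 / 4) * (4 / κ) ^ n :=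
    mul_le_mul_of_nonneg_right hA2 hr0
  have h7 : C + 2 * δ = 9 / 4 := by
    rw [hδ]
    ring
  nlinarith

end Vale.Agent.Lib.P235
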