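import Vale.Agent.Lib.P235.Defs

open MeasureTheory

namespace Vale.Agent.Lib.P235

/-- Interior vertices of the depth `n` edge substitution of a two-terminal gadget with
interior vertices `I` and edges `E`. -/
def IntV (I E : Type) : ℕ → Type
  | 0 => Empty
  | n + 1 => I ⊕ (E × IntV I E n)

/-- All vertices: two terminals (`false` the source, `true` the sink) and the interior. -/
abbrev Vtx (I E : Type) (n : ℕ) : Type := Bool ⊕ IntV I E n

namespace IntV
variable {I E : Type}

def base {n : ℕ} (i : I) : IntV I E (n + 1) := Sum.inl i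
def copy {n : ℕ} (e : E) (y : IntV I E n) : IntV I E (n + 1) := Sum.inr (e, y)

theorem cases {n : ℕ} {C : IntV I E (n + 1) → Prop} (h1 : ∀ i, C (base i))
    (h2 : ∀ e y, C (copy e y)) (z : IntV I E (n + 1)) : C z := by
  rcases z with i | ⟨e, y⟩
  · exact h1 i
  · exact h2 e y

/-- elimination out of `IntV (n+1)` -/
def elim {n : ℕ} {C : Type*} (f : I → C) (g : E → IntV I E n → C) (z : IntV I E (n + 1)) : C :=
  Sum.elim f (fun p => g p.1 p.2) z

@[simp] theorem elim_base {n : ℕ} {C : Type*} (f : I → C) (g : E → IntV I E n → C) (i : I) :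
    elim f g (base i) = f i := rfl
@[simp] theorem elim_copy {n : ℕ} {C : Type*} (f : I → C) (g : E → IntV I E n → C) (e : E)
    (y : IntV I E n) : elim f g (copy e y) = g e y := rfl

theorem copy_inj {n : ℕ} {e e' : E} {y y' : IntV I E n} (h : copy e y = copy e' y') :
    e = e' ∧ y = y' := by
  have := Sum.inr.inj h
  exact ⟨(Prod.mk.inj this).1, (Prod.mk.inj this).2⟩

theorem base_ne_copy {n : ℕ} {i : I} {e : E} {y : IntV I E n} :
    (base i : IntV I E (n + 1)) ≠ copy e y := by
  intro h
  exact Sum.inl_ne_inr h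

theorem base_inj {n : ℕ} {i i' : I} (h : (base i : IntV I E (n + 1)) = base i') : i = i' :=
  Sum.inl.inj h

end IntV

section Gadget

variable {I E : Type} (tail head : E → Bool ⊕ I)

/-- gadget vertices inside the next level -/
def up (n : ℕ) : Bool ⊕ I → Vtx I E (n + 1)
  | Sum.inl b => Sum.inl b
  | Sum.inr i => Sum.inr (IntV.base i)

theorem up_injective (n : ℕ) : Function.Injective (up (I := I) (E := E) n) := by
  intro u v h
  rcases u with b | i <;> rcases v with b' | i'
  · simpa [up] using h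
  · simp [up] at h
  · simp [up] at h
  · have : (IntV.base i : IntV I E (n + 1)) = IntV.base i' := by
      simpa [up] using h
    rw [IntV.base_inj this]

/-- the copy of level `n` placed on the edge `e` -/
def iota {n : ℕ} (e : E) : Vtx I E n → Vtx I E (n + 1)
  | Sum.inl b => up n (if b then head e else tail e)
  | Sum.inr y => Sum.inr (IntV.copy e y)

@[simp] theorem iota_false {n : ℕ} (e : E) :
    iota tail head (n := n) e (Sum.inl false) = up n (tail e) := by
  simp [iota]

@[simp] theorem iota_true {n : ℕ} (e : E) :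
    iota tail head (n := n) e (Sum.inl true) = up n (head e) := by
  simp [iota]

@[simp] theorem iota_inr {n : ℕ} (e : E) (y : IntV I E n) :
    iota tail head e (Sum.inr y) = Sum.inr (IntV.copy e y) := rfl

theorem up_ne_copy {n : ℕ} (v : Bool ⊕ I) (e : E) (y : IntV I E n) :
    up n v ≠ (Sum.inr (IntV.copy e y) : Vtx I E (n + 1)) := by
  rcases v with b | i
  · simp [up]
  · intro h
    have : (IntV.base i : IntV I E (n + 1)) = IntV.copy e y := by
      simpa [up] using h
    exact IntV.base_ne_copy this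

theorem iota_injective (hne : ∀ e, tail e ≠ head e) {n : ℕ} (e : E) :
    Function.Injective (iota tail head (n := n) e) := by
  intro u v h
  rcases u with b | y <;> rcases v with b' | y'
  · cases b <;> cases b' <;> simp_all [up_injective n |>.eq_iff, hne e, (hne e).symm]
  · exact absurd (by simpa [iota] using h) (up_ne_copy _ e y')
  · exact absurd (by simpa [iota] using h.symm) (up_ne_copy _ e y)
  · have : (IntV.copy e y : IntV I E (n + 1)) = IntV.copy e y' := by
      simpa [iota] using h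
    rw [(IntV.copy_inj this).2]

/-- The graph obtained by substituting the gadget into every edge, `n` times. -/
def substG : (n : ℕ) → SimpleGraph (Vtx I E n)
  | 0 => ⊤
  | n + 1 =>
    { Adj := fun u v => u ≠ v ∧ ∃ (e : E) (u' v' : Vtx I E n), (substG n).Adj u' v' ∧
        u = iota tail head e u' ∧ v = iota tail head e v'
      symm := ⟨by
        rintro u v ⟨hne, e, u', v', h, rfl, rfl⟩
        exact ⟨hne.symm, e, v', u', h.symm, rfl, rfl⟩⟩
      loopless := ⟨fun u h => h.1 rfl⟩ }

theorem substG_succ_adj {n : ℕ} {u v : Vtx I E (n + 1)} :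
    (substG tail head (n + 1)).Adj u v ↔ u ≠ v ∧ ∃ (e : E) (u' v' : Vtx I E n),
      (substG tail head n).Adj u' v' ∧ u = iota tail head e u' ∧ v = iota tail head e v' :=
  Iff.rfl

theorem substG_zero_adj : (substG (I := I) tail head 0).Adj (Sum.inl false) (Sum.inl true) := by
  change (⊤ : SimpleGraph _).Adj _ _
  simp

theorem substG_iota_adj (hne : ∀ e, tail e ≠ head e) {n : ℕ} (e : E) {u v : Vtx I E n}
    (h : (substG tail head n).Adj u v) :
    (substG tail head (n + 1)).Adj (iota tail head e u) (iota tail head e v) :=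
  ⟨fun hh => h.ne (iota_injective tail head hne e hh), e, u, v, h, rfl, rfl⟩

end Gadget

section Functionals

variable {I E P : Type} [Fintype E] [Fintype P] (tail head : E → Bool ⊕ I)
  (fe : E → ℝ) (ρ : ℝ) (pw : P → ℝ) (pL pR : P → Bool ⊕ I)

/-- weighted edge functional of the substituted graph -/
noncomputable def costF : (n : ℕ) → (Vtx I E n → Vtx I E n → ℝ) → ℝ
  | 0, h => h (Sum.inl false) (Sum.inl true)
  | n + 1, h =>
    ρ⁻¹ * ∑ e, fe e * costF n (fun u v => h (iota tail head e u) (iota tail head e v))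

/-- weighted pair functional of the substituted graph -/
noncomputable def sepF : (n : ℕ) → (Vtx I E n → Vtx I E n → ℝ) → ℝ
  | 0, _ => 0
  | n + 1, h =>
    ρ⁻¹ * ∑ e, fe e * sepF n (fun u v => h (iota tail head e u) (iota tail head e v))
      + ρ⁻¹ * ∑ p, pw p * h (up n (pL p)) (up n (pR p))

theorem main_ineq {Ω : Type*} [MeasurableSpace Ω] {μ : Measure Ω} (hρ : 0 < ρ)
    (hfe : ∀ e, 0 ≤ fe e)
    (hbase : ∀ g : Bool ⊕ I → Lp ℝ 1 μ,
      ∑ p, pw p * ‖g (pL p) - g (pR p)‖ + ρ * ‖g (Sum.inl false) - g (Sum.inl true)‖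
        ≤ ∑ e, fe e * ‖g (tail e) - g (head e)‖) :
    ∀ (n : ℕ) (g : Vtx I E n → Lp ℝ 1 μ),
      sepF tail head fe ρ pw pL pR n (fun u v => ‖g u - g v‖)
          + ‖g (Sum.inl false) - g (Sum.inl true)‖
        ≤ costF tail head fe ρ n (fun u v => ‖g u - g v‖) := by
  intro n
  induction n with
  | zero =>
    intro g
    simp [sepF, costF]
  | succ n ih =>
    intro g
    have h1 : ∀ e, sepF tail head fe ρ pw pL pR n
          (fun u v => ‖g (iota tail head e u) - g (iota tail head e v)‖)
          + ‖g (up n (tail e)) - g (up n (head e))‖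
        ≤ costF tail head fe ρ n
          (fun u v => ‖g (iota tail head e u) - g (iota tail head e v)‖) := by
      intro e
      have := ih (fun u => g (iota tail head e u))
      simpa using this
    have h2 := hbase (fun v => g (up n v))
    have h3 : ∑ e, fe e * (sepF tail head fe ρ pw pL pR n
          (fun u v => ‖g (iota tail head e u) - g (iota tail head e v)‖)
          + ‖g (up n (tail e)) - g (up n (head e))‖)
        ≤ ∑ e, fe e * costF tail head fe ρ n
          (fun u v => ‖g (iota tail head e u) - g (iota tail head e v)‖) :=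
      Finset.sum_le_sum fun e _ => mul_le_mul_of_nonneg_left (h1 e) (hfe e)
    simp only [mul_add, Finset.sum_add_distrib] at h3
    have h4 : (up n (Sum.inl false) : Vtx I E (n + 1)) = Sum.inl false := rfl
    have h5 : (up n (Sum.inl true) : Vtx I E (n + 1)) = Sum.inl true := rfl
    simp only [h4, h5] at h2
    have hρi : 0 ≤ ρ⁻¹ := (inv_pos.mpr hρ).le
    simp only [sepF, costF]
    have h6 := mul_le_mul_of_nonneg_left (add_le_add h2 (le_refl (∑ e, fe e *
      sepF tail head fe ρ pw pL pR n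
        (fun u v => ‖g (iota tail head e u) - g (iota tail head e v)‖)))) hρi
    have h7 : ρ⁻¹ * (ρ * ‖g (Sum.inl false) - g (Sum.inl true)‖)
        = ‖g (Sum.inl false) - g (Sum.inl true)‖ := by
      field_simp
    have h8 := mul_le_mul_of_nonneg_left h3 hρi
    rw [mul_add, mul_add, h7, mul_add] at h6
    rw [mul_add] at h8
    linarith

theorem cost_le (hρ : 0 < ρ) (hfe : ∀ e, 0 ≤ fe e) (hne : ∀ e, tail e ≠ head e) (D : ℝ) :
    ∀ (n : ℕ) (h : Vtx I E n → Vtx I E n → ℝ),
      (∀ u v, (substG tail head n).Adj u v → h u v ≤ D) →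
      costF tail head fe ρ n h ≤ D * (ρ⁻¹ * ∑ e, fe e) ^ n := by
  intro n
  induction n with
  | zero =>
    intro h hh
    simpa [costF] using hh _ _ (substG_zero_adj tail head)
  | succ n ih =>
    intro h hh
    have h1 : ∀ e, costF tail head fe ρ n (fun u v => h (iota tail head e u) (iota tail head e v))
        ≤ D * (ρ⁻¹ * ∑ e, fe e) ^ n := fun e =>
      ih _ (fun u v huv => hh _ _ (substG_iota_adj tail head hne e huv))
    have h2 : ∑ e, fe e * costF tail head fe ρ n
          (fun u v => h (iota tail head e u) (iota tail head e v))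
        ≤ ∑ e, fe e * (D * (ρ⁻¹ * ∑ e, fe e) ^ n) :=
      Finset.sum_le_sum fun e _ => mul_le_mul_of_nonneg_left (h1 e) (hfe e)
    have hρi : 0 ≤ ρ⁻¹ := (inv_pos.mpr hρ).le
    have h3 := mul_le_mul_of_nonneg_left h2 hρi
    rw [← Finset.sum_mul] at h3
    simp only [costF]
    calc _ ≤ _ := h3
      _ = _ := by rw [pow_succ]; ring

end Functionals

section Potentials

variable {I E : Type} (tail head : E → Bool ⊕ I)

/-- integer potentials certifying a lower bound on a distance -/
def TestB (n : ℕ) (p q : Vtx I E n) (val : ℤ) : Prop :=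
  ∃ φ : Vtx I E n → ℤ, φ (Sum.inl false) = 0 ∧ φ (Sum.inl true) = 0 ∧
    (∀ u v, (substG tail head n).Adj u v → |φ u - φ v| ≤ 1) ∧ φ p - φ q = val

/-- extension by zero outside one copy -/
noncomputable def liftPot {n : ℕ} (φ : Vtx I E n → ℤ) (e0 : E) : Vtx I E (n + 1) → ℤ := by
  classical
  exact fun z => Sum.elim (fun _ => 0)
    (fun w => IntV.elim (fun _ => 0) (fun e y => if e = e0 then φ (Sum.inr y) else 0) w) z

theorem liftPot_up {n : ℕ} (φ : Vtx I E n → ℤ) (e0 : E) (v : Bool ⊕ I) :
    liftPot φ e0 (up n v) = 0 := by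
  rcases v with b | i <;> simp [liftPot, up]

theorem liftPot_iota_self {n : ℕ} (φ : Vtx I E n → ℤ) (e0 : E)
    (h0 : φ (Sum.inl false) = 0) (h1 : φ (Sum.inl true) = 0) (u : Vtx I E n) :
    liftPot φ e0 (iota tail head e0 u) = φ u := by
  rcases u with b | y
  · cases b
    · simp [liftPot_up, h0]
    · simp [liftPot_up, h1]
  · simp [liftPot]

theorem liftPot_iota_ne {n : ℕ} (φ : Vtx I E n → ℤ) {e e0 : E} (hne : e ≠ e0) (u : Vtx I E n) :
    liftPot φ e0 (iota tail head e u) = 0 := by
  rcases u with b | y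
  · cases b <;> simp [liftPot_up]
  · simp [liftPot, hne]

theorem TestB.lift {n : ℕ} {p q : Vtx I E n} {val : ℤ} (h : TestB tail head n p q val) (e : E) :
    TestB tail head (n + 1) (iota tail head e p) (iota tail head e q) val := by
  obtain ⟨φ, h0, h1, hl, hv⟩ := h
  refine ⟨liftPot φ e, ?_, ?_, ?_, ?_⟩
  · exact liftPot_up φ e (Sum.inl false)
  · exact liftPot_up φ e (Sum.inl true)
  · rintro u v ⟨-, e', u', v', ha, rfl, rfl⟩
    by_cases he : e' = e
    · subst he
      rw [liftPot_iota_self tail head φ e' h0 h1, liftPot_iota_self tail head φ e' h0 h1]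
      exact hl _ _ ha
    · rw [liftPot_iota_ne tail head φ he, liftPot_iota_ne tail head φ he]
      simp
  · rw [liftPot_iota_self tail head φ e h0 h1, liftPot_iota_self tail head φ e h0 h1, hv]

variable (L : ℤ) (ht : Bool ⊕ I → ℤ)

/-- height function on the substituted graph -/
def rk : (n : ℕ) → Vtx I E n → ℤ
  | 0, Sum.inl b => if b then 1 else 0
  | 0, Sum.inr _ => 0
  | n + 1, Sum.inl b => L ^ n * ht (Sum.inl b)
  | n + 1, Sum.inr z =>
    IntV.elim (fun i => L ^ n * ht (Sum.inr i))
      (fun e y => L ^ n * ht (tail e) + rk n (Sum.inr y)) z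

theorem rk_up (n : ℕ) (v : Bool ⊕ I) : rk tail L ht (n + 1) (up n v) = L ^ n * ht v := by
  rcases v with b | i <;> simp [rk, up]

theorem rk_false (hs : ht (Sum.inl false) = 0) (n : ℕ) :
    rk tail L ht n (Sum.inl false) = 0 := by
  cases n <;> simp [rk, hs]

theorem rk_true (ht1 : ht (Sum.inl true) = L) (n : ℕ) :
    rk tail L ht n (Sum.inl true) = L ^ n := by
  cases n <;> simp [rk, ht1, pow_succ]

theorem rk_iota (hs : ht (Sum.inl false) = 0) (ht1 : ht (Sum.inl true) = L)
    (hstep : ∀ e, ht (head e) = ht (tail e) + 1) (n : ℕ) (e : E) (u : Vtx I E n) :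
    rk tail L ht (n + 1) (iota tail head e u) = L ^ n * ht (tail e) + rk tail L ht n u := by
  rcases u with b | y
  · cases b
    · simp [rk_up, rk_false tail L ht hs]
    · simp [rk_up, rk_true tail L ht ht1, hstep e, mul_add]
  · simp [rk]

theorem rk_lip (hs : ht (Sum.inl false) = 0)
    (ht1 : ht (Sum.inl true) = L) (hstep : ∀ e, ht (head e) = ht (tail e) + 1) :
    ∀ (n : ℕ) (u v : Vtx I E n), (substG tail head n).Adj u v →
      |rk tail L ht n u - rk tail L ht n v| ≤ 1 := by
  intro n
  induction n with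
  | zero =>
    rintro (b | y) (b' | y') h
    · cases b <;> cases b' <;> simp [rk]
    · cases (show Empty from y')
    · cases (show Empty from y)
    · cases (show Empty from y)
  | succ n ih =>
    rintro u v ⟨-, e, u', v', ha, rfl, rfl⟩
    rw [rk_iota tail head L ht hs ht1 hstep, rk_iota tail head L ht hs ht1 hstep]
    have := ih _ _ ha
    simpa using this

/-- interpolation of a gadget potential along the copies -/
def interp (ϕ : Bool ⊕ I → ℤ) (n : ℕ) : Vtx I E (n + 1) → ℤ
  | Sum.inl b => L ^ n * ϕ (Sum.inl b)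
  | Sum.inr z =>
    IntV.elim (fun i => L ^ n * ϕ (Sum.inr i))
      (fun e y => L ^ n * ϕ (tail e) + (ϕ (head e) - ϕ (tail e)) * rk tail L ht n (Sum.inr y)) z

theorem interp_up (ϕ : Bool ⊕ I → ℤ) (n : ℕ) (v : Bool ⊕ I) :
    interp tail head L ht ϕ n (up n v) = L ^ n * ϕ v := by
  rcases v with b | i <;> simp [interp, up]

theorem interp_iota (hs : ht (Sum.inl false) = 0) (ht1 : ht (Sum.inl true) = L)
    (ϕ : Bool ⊕ I → ℤ) (n : ℕ) (e : E) (u : Vtx I E n) :
    interp tail head L ht ϕ n (iota tail head e u)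
      = L ^ n * ϕ (tail e) + (ϕ (head e) - ϕ (tail e)) * rk tail L ht n u := by
  rcases u with b | y
  · cases b
    · simp [interp_up, rk_false tail L ht hs]
    · simp [interp_up, rk_true tail L ht ht1]
      ring
  · simp [interp]

theorem testB_interp (hs : ht (Sum.inl false) = 0)
    (ht1 : ht (Sum.inl true) = L) (hstep : ∀ e, ht (head e) = ht (tail e) + 1)
    (ϕ : Bool ⊕ I → ℤ) (h0 : ϕ (Sum.inl false) = 0) (h1 : ϕ (Sum.inl true) = 0)
    (hl : ∀ e, |ϕ (head e) - ϕ (tail e)| ≤ 1) (n : ℕ) (a b : Bool ⊕ I) :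
    TestB tail head (n + 1) (up n a) (up n b) (L ^ n * (ϕ a - ϕ b)) := by
  refine ⟨interp tail head L ht ϕ n, ?_, ?_, ?_, ?_⟩
  · simp [interp, h0]
  · simp [interp, h1]
  · rintro u v ⟨-, e, u', v', ha, rfl, rfl⟩
    rw [interp_iota tail head L ht hs ht1, interp_iota tail head L ht hs ht1]
    have h2 := rk_lip tail head L ht hs ht1 hstep n _ _ ha
    have h3 : L ^ n * ϕ (tail e) + (ϕ (head e) - ϕ (tail e)) * rk tail L ht n u'
        - (L ^ n * ϕ (tail e) + (ϕ (head e) - ϕ (tail e)) * rk tail L ht n v')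
        = (ϕ (head e) - ϕ (tail e)) * (rk tail L ht n u' - rk tail L ht n v') := by ring
    rw [h3, abs_mul]
    calc _ ≤ (1 : ℤ) * 1 := mul_le_mul (hl e) h2 (abs_nonneg _) (by norm_num)
      _ = 1 := by norm_num
  · rw [interp_up, interp_up]
    ring

end Potentials

theorem pot_le_dist {V : Type*} {G : SimpleGraph V} (hconn : G.Connected) (φ : V → ℤ)
    (hl : ∀ u v, G.Adj u v → |φ u - φ v| ≤ 1) (p q : V) :
    ((φ p - φ q : ℤ) : ℝ) ≤ G.dist p q := by
  obtain ⟨w, hw⟩ := hconn.exists_walk_length_eq_dist p q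
  have key : ∀ {a b : V} (w : G.Walk a b), φ a - φ b ≤ (w.length : ℤ) := by
    intro a b w
    induction w with
    | nil => simp
    | cons h _ ih =>
      have := abs_le.mp (hl _ _ h)
      simp only [SimpleGraph.Walk.length_cons]
      push_cast
      linarith [this.2]
  have := key w
  rw [hw] at this
  exact_mod_cast this

section Lower

variable {I E P : Type} [Fintype E] [Fintype P] (tail head : E → Bool ⊕ I)
  (fe : E → ℝ) (ρ : ℝ) (pw : P → ℝ) (pL pR : P → Bool ⊕ I)
  (L : ℤ) (ht : Bool ⊕ I → ℤ) (ϕ : P → Bool ⊕ I → ℤ)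

theorem sep_ge (hρ : 0 < ρ) (hfe : ∀ e, 0 ≤ fe e) (hpw : ∀ p, 0 ≤ pw p) (hL : 0 < L)
    (hne : ∀ e, tail e ≠ head e) (hs : ht (Sum.inl false) = 0)
    (ht1 : ht (Sum.inl true) = L) (hstep : ∀ e, ht (head e) = ht (tail e) + 1)
    (h0 : ∀ p, ϕ p (Sum.inl false) = 0) (h1 : ∀ p, ϕ p (Sum.inl true) = 0)
    (hl : ∀ p e, |ϕ p (head e) - ϕ p (tail e)| ≤ 1)
    (A : ℝ)
    (hA : A * ((ρ⁻¹ * ∑ e, fe e) - L)
      ≤ ρ⁻¹ * ∑ p, pw p * ((ϕ p (pL p) - ϕ p (pR p) : ℤ) : ℝ)) :
    ∀ (n : ℕ) (h : Vtx I E n → Vtx I E n → ℝ),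
      (∀ p q val, TestB tail head n p q val → (val : ℝ) ≤ h p q) →
      A * ((ρ⁻¹ * ∑ e, fe e) ^ n - (L : ℝ) ^ n) ≤ sepF tail head fe ρ pw pL pR n h := by
  intro n
  induction n with
  | zero =>
    intro h _
    simp [sepF]
  | succ n ih =>
    intro h hh
    set κ : ℝ := ρ⁻¹ * ∑ e, fe e with hκ
    have h1' : ∀ e, A * (κ ^ n - (L : ℝ) ^ n) ≤ sepF tail head fe ρ pw pL pR n
        (fun u v => h (iota tail head e u) (iota tail head e v)) := fun e =>
      ih _ (fun p q val ht' => hh _ _ _ (ht'.lift tail head e))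
    have h2 : ∑ e, fe e * (A * (κ ^ n - (L : ℝ) ^ n)) ≤ ∑ e, fe e * sepF tail head fe ρ pw pL pR n
        (fun u v => h (iota tail head e u) (iota tail head e v)) :=
      Finset.sum_le_sum fun e _ => mul_le_mul_of_nonneg_left (h1' e) (hfe e)
    have hρi : 0 ≤ ρ⁻¹ := (inv_pos.mpr hρ).le
    have h3 := mul_le_mul_of_nonneg_left h2 hρi
    rw [← Finset.sum_mul, ← mul_assoc, ← hκ] at h3
    have h4 : ∀ p, (L : ℝ) ^ n * ((ϕ p (pL p) - ϕ p (pR p) : ℤ) : ℝ)
        ≤ h (up n (pL p)) (up n (pR p)) := by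
      intro p
      have := hh _ _ _ (testB_interp tail head L ht hs ht1 hstep (ϕ p) (h0 p) (h1 p)
        (hl p) n (pL p) (pR p))
      exact_mod_cast this
    have h5 : ∑ p, pw p * ((L : ℝ) ^ n * ((ϕ p (pL p) - ϕ p (pR p) : ℤ) : ℝ))
        ≤ ∑ p, pw p * h (up n (pL p)) (up n (pR p)) :=
      Finset.sum_le_sum fun p _ => mul_le_mul_of_nonneg_left (h4 p) (hpw p)
    have h6 := mul_le_mul_of_nonneg_left h5 hρi
    have hLn : (0 : ℝ) ≤ (L : ℝ) ^ n := by
      have : (0 : ℝ) < L := by exact_mod_cast hL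
      positivity
    have h7 := mul_le_mul_of_nonneg_left hA hLn
    have h8 : ρ⁻¹ * ∑ p, pw p * ((L : ℝ) ^ n * ((ϕ p (pL p) - ϕ p (pR p) : ℤ) : ℝ))
        = (L : ℝ) ^ n * (ρ⁻¹ * ∑ p, pw p * ((ϕ p (pL p) - ϕ p (pR p) : ℤ) : ℝ)) := by
      simp only [Finset.mul_sum]
      refine Finset.sum_congr rfl fun p _ => ?_
      ring
    simp only [sepF]
    rw [pow_succ κ n, pow_succ (L : ℝ) n]
    nlinarith [h3, h6, h7, h8]

/-- the abstract conclusion: a lower bound on the distortion -/
theorem distortion_ge {Ω : Type*} [MeasurableSpace Ω] {μ : Measure Ω}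
    (hρ : 0 < ρ) (hfe : ∀ e, 0 ≤ fe e) (hpw : ∀ p, 0 ≤ pw p) (hL : 0 < L)
    (hne : ∀ e, tail e ≠ head e) (hs : ht (Sum.inl false) = 0)
    (ht1 : ht (Sum.inl true) = L) (hstep : ∀ e, ht (head e) = ht (tail e) + 1)
    (h0 : ∀ p, ϕ p (Sum.inl false) = 0) (h1 : ∀ p, ϕ p (Sum.inl true) = 0)
    (hl : ∀ p e, |ϕ p (head e) - ϕ p (tail e)| ≤ 1)
    (A : ℝ)
    (hA : A * ((ρ⁻¹ * ∑ e, fe e) - L)
      ≤ ρ⁻¹ * ∑ p, pw p * ((ϕ p (pL p) - ϕ p (pR p) : ℤ) : ℝ))
    (hbase : ∀ g : Bool ⊕ I → Lp ℝ 1 μ,
      ∑ p, pw p * ‖g (pL p) - g (pR p)‖ + ρ * ‖g (Sum.inl false) - g (Sum.inl true)‖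
        ≤ ∑ e, fe e * ‖g (tail e) - g (head e)‖)
    (n : ℕ) (hconn : (substG tail head n).Connected) (C : ℝ)
    (g : Vtx I E n → Lp ℝ 1 μ)
    (hg : ∀ x y, ((substG tail head n).dist x y : ℝ) ≤ ‖g x - g y‖ ∧
      ‖g x - g y‖ ≤ C * (substG tail head n).dist x y) :
    A * ((ρ⁻¹ * ∑ e, fe e) ^ n - (L : ℝ) ^ n) ≤ C * (ρ⁻¹ * ∑ e, fe e) ^ n := by
  have h1' := sep_ge tail head fe ρ pw pL pR L ht ϕ hρ hfe hpw hL hne hs ht1 hstep h0 h1 hl A hA n
    (fun u v => ‖g u - g v‖) (by
      rintro p q val ⟨φ, _, _, hφ, rfl⟩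
      exact (pot_le_dist hconn φ hφ p q).trans (hg p q).1)
  have h2 := main_ineq tail head fe ρ pw pL pR hρ hfe hbase n g
  have h3 := cost_le tail head fe ρ hρ hfe hne C n (fun u v => ‖g u - g v‖) (by
    intro u v huv
    have := (hg u v).2
    rw [SimpleGraph.dist_eq_one_iff_adj.mpr huv] at this
    simpa using this)
  have h4 : 0 ≤ ‖g (Sum.inl false) - g (Sum.inl true)‖ := norm_nonneg _
  linarith

end Lower

section Connected

variable {I E : Type} (tail head : E → Bool ⊕ I)

/-- the gadget itself as an undirected graph -/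
def baseG : SimpleGraph (Bool ⊕ I) :=
  SimpleGraph.fromRel (fun u v => ∃ e, tail e = u ∧ head e = v)

theorem substG_connected (hne : ∀ e, tail e ≠ head e)
    (hb : ∀ v, (baseG tail head).Reachable (Sum.inl false) v) :
    ∀ n, (substG tail head n).Connected := by
  intro n
  induction n with
  | zero =>
    refine (SimpleGraph.connected_iff _).2 ⟨?_, ⟨Sum.inl false⟩⟩
    intro u v
    by_cases h : u = v
    · rw [h]
    · exact SimpleGraph.Adj.reachable (by
        change (⊤ : SimpleGraph _).Adj _ _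
        simpa using h)
  | succ n ih =>
    have hmap : ∀ e (a b : Vtx I E n), (substG tail head n).Reachable a b →
        (substG tail head (n + 1)).Reachable (iota tail head e a) (iota tail head e b) := by
      intro e a b hab
      let f : substG tail head n →g substG tail head (n + 1) :=
        ⟨iota tail head e, fun h => substG_iota_adj tail head hne e h⟩
      exact hab.map f
    have hedge : ∀ e, (substG tail head (n + 1)).Reachable (up n (tail e)) (up n (head e)) := by
      intro e
      have := hmap e _ _ (ih.preconnected (Sum.inl false) (Sum.inl true))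
      simpa using this
    have hadj : ∀ u v, (baseG tail head).Adj u v →
        (substG tail head (n + 1)).Reachable (up n u) (up n v) := by
      intro u v huv
      rcases (SimpleGraph.fromRel_adj _ _ _).1 huv with ⟨-, ⟨e, rfl, rfl⟩ | ⟨e, rfl, rfl⟩⟩
      · exact hedge e
      · exact (hedge e).symm
    have hwalk : ∀ {u v : Bool ⊕ I}, (baseG tail head).Reachable u v →
        (substG tail head (n + 1)).Reachable (up n u) (up n v) := by
      rintro u v ⟨w⟩
      induction w with
      | nil => exact SimpleGraph.Reachable.refl _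
      | cons h _ ih' => exact (hadj _ _ h).trans ih'
    have hup : ∀ v, (substG tail head (n + 1)).Reachable (Sum.inl false) (up n v) := fun v =>
      hwalk (hb v)
    have hall : ∀ v : Vtx I E (n + 1), (substG tail head (n + 1)).Reachable (Sum.inl false) v := by
      rintro (b | z)
      · exact hup (Sum.inl b)
      · revert z
        apply IntV.cases
        · intro i
          exact hup (Sum.inr i)
        · intro e y
          have h1 := hup (tail e)
          have h2 := hmap e (Sum.inl false) (Sum.inr y) (ih.preconnected _ _)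
          simp only [iota_false, iota_inr] at h2
          exact h1.trans h2
    refine (SimpleGraph.connected_iff _).2 ⟨?_, ⟨Sum.inl false⟩⟩
    intro u v
    exact (hall u).symm.trans (hall v)

end Connected

end Vale.Agent.Lib.P235
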