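import Vale.Agent.Lib.P235.Subst

set_option linter.unusedSectionVars false

namespace Vale.Agent.Lib.P235

section Parent

variable {ι : Type} (p : ι → ι) (rank : ι → ℕ) (root : ι)

/-- the tree given by parent pointers -/
def parentGraph (hrank : ∀ u, u ≠ root → rank (p u) < rank u) : SimpleGraph ι where
  Adj u v := (u ≠ root ∧ p u = v) ∨ (v ≠ root ∧ p v = u)
  symm := ⟨fun _ _ h => h.symm⟩
  loopless := ⟨by
    rintro u (⟨h, h'⟩ | ⟨h, h'⟩) <;>
    · have := hrank u h
      rw [h'] at this
      exact lt_irrefl _ this⟩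

variable {p rank root}

theorem parentGraph_reachable (hrank : ∀ u, u ≠ root → rank (p u) < rank u) (u : ι) :
    (parentGraph p rank root hrank).Reachable u root := by
  induction hn : rank u using Nat.strong_induction_on generalizing u with
  | _ n ih =>
    by_cases hu : u = root
    · rw [hu]
    · have h1 : (parentGraph p rank root hrank).Adj u (p u) := Or.inl ⟨hu, rfl⟩
      exact h1.reachable.trans (ih _ (hn ▸ hrank u hu) _ rfl)

theorem parentGraph_isTree [Finite ι] (hrank : ∀ u, u ≠ root → rank (p u) < rank u) :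
    (parentGraph p rank root hrank).IsTree := by
  classical
  rw [SimpleGraph.isTree_iff_connected_and_card]
  constructor
  · refine (SimpleGraph.connected_iff _).2 ⟨?_, ⟨root⟩⟩
    intro u v
    exact (parentGraph_reachable hrank u).trans (parentGraph_reachable hrank v).symm
  · let f : {u : ι // u ≠ root} → (parentGraph p rank root hrank).edgeSet := fun u =>
      ⟨s(u.1, p u.1), Or.inl ⟨u.2, rfl⟩⟩
    have hf : Function.Bijective f := by
      constructor
      · rintro ⟨u, hu⟩ ⟨v, hv⟩ h
        have h' : s(u, p u) = s(v, p v) := congrArg Subtype.val h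
        rcases Sym2.eq_iff.1 h' with ⟨h1, -⟩ | ⟨h1, h2⟩
        · exact Subtype.ext h1
        · exfalso
          have h3 := hrank u hu
          have h4 := hrank v hv
          rw [h2] at h3
          rw [← h1] at h4
          exact lt_asymm h3 h4
      · rintro ⟨e, he⟩
        induction e using Sym2.ind with
        | _ a b =>
          rcases he with ⟨h1, h2⟩ | ⟨h1, h2⟩
          · refine ⟨⟨a, h1⟩, Subtype.ext ?_⟩
            simp [f, h2]
          · refine ⟨⟨b, h1⟩, Subtype.ext ?_⟩
            simp [f, h2, Sym2.eq_swap]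
    have h1 : Nat.card (parentGraph p rank root hrank).edgeSet = Nat.card {u : ι // u ≠ root} :=
      (Nat.card_eq_of_bijective f hf).symm
    have h2 : Nat.card (Option {u : ι // u ≠ root}) = Nat.card ι :=
      Nat.card_congr (Equiv.optionSubtypeNe root)
    have : Finite {u : ι // u ≠ root} := inferInstance
    rw [Finite.card_option] at h2
    omega

theorem treewidthLE_of_parent {V : Type} [Fintype ι] (G : SimpleGraph V) (w : ℕ)
    (bag : ι → Finset V) (top : V → ι)
    (hrank : ∀ u, u ≠ root → rank (p u) < rank u)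
    (htop : ∀ v, v ∈ bag (top v))
    (hstep : ∀ v t, v ∈ bag t → t = top v ∨ (t ≠ root ∧ v ∈ bag (p t)))
    (hedge : ∀ u v, G.Adj u v → ∃ t, u ∈ bag t ∧ v ∈ bag t)
    (hcard : ∀ t, (bag t).card ≤ w + 1) : TreewidthLE G w := by
  refine ⟨ι, inferInstance, parentGraph p rank root hrank, bag,
    parentGraph_isTree hrank, ?_, hedge, hcard⟩
  intro v
  have key : ∀ (t : ι) (ht : v ∈ bag t),
      ((parentGraph p rank root hrank).induce {t : ι | v ∈ bag t}).Reachable
        ⟨t, ht⟩ ⟨top v, htop v⟩ := by
    intro t
    induction hn : rank t using Nat.strong_induction_on generalizing t with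
    | _ n ih =>
      intro ht
      rcases hstep v t ht with h | ⟨h1, h2⟩
      · subst h
        exact SimpleGraph.Reachable.refl _
      · have h3 : ((parentGraph p rank root hrank).induce {t : ι | v ∈ bag t}).Adj
            ⟨t, ht⟩ ⟨p t, h2⟩ := by
          simp only [SimpleGraph.comap_adj, Function.Embedding.coe_subtype]
          exact Or.inl ⟨h1, rfl⟩
        exact h3.reachable.trans (ih _ (hn ▸ hrank t h1) _ rfl h2)
  refine (SimpleGraph.connected_iff _).2 ⟨?_, ⟨⟨top v, htop v⟩⟩⟩
  rintro ⟨a, ha⟩ ⟨b, hb⟩
  exact (key a ha).trans (key b hb).symm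

end Parent

/-- Nodes of the tree decomposition of the substituted graph. -/
def Node (BN E : Type) : ℕ → Type
  | 0 => Unit
  | n + 1 => BN ⊕ (E × Node BN E n)

noncomputable instance instFintypeNode {BN E : Type} [Fintype BN] [Fintype E] :
    ∀ n, Fintype (Node BN E n)
  | 0 => inferInstanceAs (Fintype Unit)
  | n + 1 =>
    letI := instFintypeNode (BN := BN) (E := E) n
    inferInstanceAs (Fintype (BN ⊕ (E × Node BN E n)))

section Rec

variable {I E BN : Type} [Fintype BN] (tail head : E → Bool ⊕ I)
  (pB : BN → BN) (rankB : BN → ℕ) (rB : BN) (bagB : BN → Finset (Bool ⊕ I))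
  (topB : Bool ⊕ I → BN) (eN : E → BN)

namespace Node

def b {n : ℕ} (x : BN) : Node BN E (n + 1) := Sum.inl x
def c {n : ℕ} (e : E) (y : Node BN E n) : Node BN E (n + 1) := Sum.inr (e, y)

theorem cases {n : ℕ} {C : Node BN E (n + 1) → Prop} (h1 : ∀ x, C (b x))
    (h2 : ∀ e y, C (c e y)) (z : Node BN E (n + 1)) : C z := by
  rcases z with i | ⟨e, y⟩
  · exact h1 i
  · exact h2 e y

def elim {n : ℕ} {C : Type*} (f : BN → C) (g : E → Node BN E n → C) (z : Node BN E (n + 1)) : C :=
  Sum.elim f (fun p => g p.1 p.2) z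

@[simp] theorem elim_b {n : ℕ} {C : Type*} (f : BN → C) (g : E → Node BN E n → C) (x : BN) :
    elim f g (b x) = f x := rfl
@[simp] theorem elim_c {n : ℕ} {C : Type*} (f : BN → C) (g : E → Node BN E n → C) (e : E)
    (y : Node BN E n) : elim f g (c e y) = g e y := rfl

theorem b_ne_c {n : ℕ} {x : BN} {e : E} {y : Node BN E n} :
    (b x : Node BN E (n + 1)) ≠ c e y := fun h => Sum.inl_ne_inr h

theorem b_inj {n : ℕ} {x x' : BN} (h : (b x : Node BN E (n + 1)) = b x') : x = x' :=
  Sum.inl.inj h

end Node

/-- the root node -/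
def rootN : (n : ℕ) → Node BN E n
  | 0 => ()
  | _ + 1 => Node.b rB

open Classical in
/-- parent pointers -/
noncomputable def parentN : (n : ℕ) → Node BN E n → Node BN E n
  | 0, _ => ()
  | n + 1, z =>
    Node.elim (fun x => Node.b (pB x))
      (fun e y => if y = rootN rB n then Node.b (eN e) else Node.c e (parentN n y)) z

/-- ranks -/
noncomputable def rankN : (n : ℕ) → Node BN E n → ℕ
  | 0, _ => 0
  | n + 1, z =>
    Node.elim rankB (fun _ y => (∑ x, rankB x) + 1 + rankN n y) z

open Classical in
/-- bags -/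
noncomputable def bagN : (n : ℕ) → Node BN E n → Finset (Vtx I E n)
  | 0, _ => {Sum.inl false, Sum.inl true}
  | n + 1, z =>
    Node.elim (fun x => (bagB x).image (up n))
      (fun e y => (bagN n y).image (iota tail head e)) z

/-- the topmost node of a vertex -/
def topN : (n : ℕ) → Vtx I E n → Node BN E n
  | 0, _ => ()
  | _ + 1, Sum.inl t => Node.b (topB (Sum.inl t))
  | n + 1, Sum.inr z =>
    IntV.elim (fun i => Node.b (topB (Sum.inr i))) (fun e y => Node.c e (topN n (Sum.inr y))) z

theorem topN_up (n : ℕ) (v : Bool ⊕ I) :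
    topN (E := E) topB (n + 1) (up n v) = Node.b (topB v) := by
  rcases v with t | i <;> simp [topN, up]

theorem mem_bagN_succ_b {n : ℕ} {v : Vtx I E (n + 1)} {x : BN} :
    v ∈ bagN tail head bagB (n + 1) (Node.b x) ↔ ∃ v0 ∈ bagB x, up n v0 = v := by
  classical
  simp [bagN, Finset.mem_image]

theorem mem_bagN_succ_c {n : ℕ} {v : Vtx I E (n + 1)} {e : E} {y : Node BN E n} :
    v ∈ bagN tail head bagB (n + 1) (Node.c e y)
      ↔ ∃ u ∈ bagN tail head bagB n y, iota tail head e u = v := by
  classical
  simp [bagN, Finset.mem_image]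

variable {tail head pB rankB rB bagB topB eN}

theorem rankN_lt (hrankB : ∀ u, u ≠ rB → rankB (pB u) < rankB u) :
    ∀ (n : ℕ) (u : Node BN E n), u ≠ rootN rB n →
      rankN rankB n (parentN pB rB eN n u) < rankN rankB n u := by
  intro n
  induction n with
  | zero =>
    intro u hu
    exact absurd rfl hu
  | succ n ih =>
    apply Node.cases
    · intro x hx
      have hx' : x ≠ rB := fun h => hx (by rw [h]; rfl)
      simpa [rankN, parentN] using hrankB x hx'
    · intro e y _
      by_cases hy : y = rootN rB n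
      · have h1 : rankB (eN e) ≤ ∑ x, rankB x :=
          Finset.single_le_sum (f := rankB) (fun _ _ => Nat.zero_le _) (Finset.mem_univ _)
        simp only [rankN, parentN, Node.elim_c, if_pos hy, Node.elim_b]
        omega
      · have h1 := ih y hy
        simp only [rankN, parentN, Node.elim_c, if_neg hy]
        omega

theorem mem_bagN_topN (htopB : ∀ v, v ∈ bagB (topB v)) :
    ∀ (n : ℕ) (v : Vtx I E n), v ∈ bagN tail head bagB n (topN topB n v) := by
  intro n
  induction n with
  | zero =>
    rintro (t | y)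
    · cases t <;> simp [bagN]
    · cases (show Empty from y)
  | succ n ih =>
    rintro (t | z)
    · exact (mem_bagN_succ_b tail head bagB).2 ⟨Sum.inl t, htopB _, rfl⟩
    · revert z
      apply IntV.cases
      · intro i
        exact (mem_bagN_succ_b tail head bagB).2 ⟨Sum.inr i, htopB _, rfl⟩
      · intro e y
        exact (mem_bagN_succ_c tail head bagB).2 ⟨Sum.inr y, ih _, rfl⟩

theorem terminal_mem_root (hsB : Sum.inl false ∈ bagB rB) (htB : Sum.inl true ∈ bagB rB) :
    ∀ (n : ℕ) (t : Bool), (Sum.inl t : Vtx I E n) ∈ bagN tail head bagB n (rootN rB n) := by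
  intro n t
  cases n with
  | zero => cases t <;> simp [bagN]
  | succ n =>
    refine (mem_bagN_succ_b tail head bagB).2 ⟨Sum.inl t, ?_, rfl⟩
    cases t
    · exact hsB
    · exact htB

theorem topN_terminal (hstepB : ∀ v t, v ∈ bagB t → t = topB v ∨ (t ≠ rB ∧ v ∈ bagB (pB t)))
    (hsB : Sum.inl false ∈ bagB rB) (htB : Sum.inl true ∈ bagB rB) (n : ℕ) (t : Bool) :
    topN (E := E) topB n (Sum.inl t) = rootN rB n := by
  cases n with
  | zero => rfl
  | succ n =>
    have h1 : Sum.inl t ∈ bagB rB := by
      cases t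
      · exact hsB
      · exact htB
    rcases hstepB _ _ h1 with h | h
    · simp [topN, rootN, ← h]
    · exact absurd rfl h.1

theorem stepN (hstepB : ∀ v t, v ∈ bagB t → t = topB v ∨ (t ≠ rB ∧ v ∈ bagB (pB t)))
    (hsB : Sum.inl false ∈ bagB rB) (htB : Sum.inl true ∈ bagB rB)
    (heN : ∀ e, tail e ∈ bagB (eN e) ∧ head e ∈ bagB (eN e)) :
    ∀ (n : ℕ) (v : Vtx I E n) (t : Node BN E n), v ∈ bagN tail head bagB n t →
      t = topN topB n v ∨ (t ≠ rootN rB n ∧ v ∈ bagN tail head bagB n (parentN pB rB eN n t)) := by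
  intro n
  induction n with
  | zero =>
    intro v t _
    exact Or.inl rfl
  | succ n ih =>
    intro v
    apply Node.cases
    · intro x hv
      obtain ⟨v0, hv0, rfl⟩ := (mem_bagN_succ_b tail head bagB).1 hv
      rcases hstepB _ _ hv0 with h | ⟨h1, h2⟩
      · left
        rw [topN_up, ← h]
      · right
        refine ⟨fun h => h1 (Node.b_inj h), ?_⟩
        simp only [parentN, Node.elim_b]
        exact (mem_bagN_succ_b tail head bagB).2 ⟨v0, h2, rfl⟩
    · intro e y hv
      obtain ⟨u, hu, rfl⟩ := (mem_bagN_succ_c tail head bagB).1 hv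
      have hroot : (Node.c e y : Node BN E (n + 1)) ≠ rootN rB (n + 1) :=
        fun h => Node.b_ne_c h.symm
      rcases u with t | z
      · -- a terminal of the copy
        right
        refine ⟨hroot, ?_⟩
        simp only [parentN, Node.elim_c]
        by_cases hy : y = rootN rB n
        · rw [if_pos hy]
          refine (mem_bagN_succ_b tail head bagB).2 ⟨if t then head e else tail e, ?_, ?_⟩
          · cases t
            · simpa using (heN e).1
            · simpa using (heN e).2
          · simp [iota]
        · rw [if_neg hy]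
          rcases ih _ _ hu with h | ⟨_, h2⟩
          · exact absurd (h.trans (topN_terminal hstepB hsB htB n t)) hy
          · exact (mem_bagN_succ_c tail head bagB).2 ⟨_, h2, rfl⟩
      · rcases ih _ _ hu with h | ⟨h1, h2⟩
        · left
          simp [topN, ← h]
        · right
          refine ⟨hroot, ?_⟩
          simp only [parentN, Node.elim_c, if_neg h1]
          exact (mem_bagN_succ_c tail head bagB).2 ⟨_, h2, rfl⟩

theorem edgeN : ∀ (n : ℕ) (u v : Vtx I E n), (substG tail head n).Adj u v →
    ∃ t, u ∈ bagN tail head bagB n t ∧ v ∈ bagN tail head bagB n t := by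
  intro n
  induction n with
  | zero =>
    rintro (t | y) (t' | y') _
    · refine ⟨(), ?_, ?_⟩
      · cases t <;> simp [bagN]
      · cases t' <;> simp [bagN]
    · cases (show Empty from y')
    · cases (show Empty from y)
    · cases (show Empty from y)
  | succ n ih =>
    rintro u v ⟨-, e, u', v', ha, rfl, rfl⟩
    obtain ⟨y, h1, h2⟩ := ih _ _ ha
    exact ⟨Node.c e y, (mem_bagN_succ_c tail head bagB).2 ⟨_, h1, rfl⟩,
      (mem_bagN_succ_c tail head bagB).2 ⟨_, h2, rfl⟩⟩

theorem cardN (w : ℕ) (hw : 2 ≤ w + 1) (hcard : ∀ t, (bagB t).card ≤ w + 1) :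
    ∀ (n : ℕ) (t : Node BN E n), (bagN tail head bagB n t).card ≤ w + 1 := by
  classical
  intro n
  induction n with
  | zero =>
    intro _
    exact (Finset.card_le_two).trans hw
  | succ n ih =>
    apply Node.cases
    · intro x
      simp only [bagN, Node.elim_b]
      exact Finset.card_image_le.trans (hcard x)
    · intro e y
      simp only [bagN, Node.elim_c]
      exact Finset.card_image_le.trans (ih y)

/-- A rooted tree decomposition of the gadget (with the two terminals in the root bag and every
edge in some bag) gives one of the same width for every depth of substitution. -/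
theorem substG_treewidthLE [Fintype E] (w : ℕ) (hw : 2 ≤ w + 1)
    (hrankB : ∀ u, u ≠ rB → rankB (pB u) < rankB u)
    (htopB : ∀ v, v ∈ bagB (topB v))
    (hstepB : ∀ v t, v ∈ bagB t → t = topB v ∨ (t ≠ rB ∧ v ∈ bagB (pB t)))
    (hsB : Sum.inl false ∈ bagB rB) (htB : Sum.inl true ∈ bagB rB)
    (heN : ∀ e, tail e ∈ bagB (eN e) ∧ head e ∈ bagB (eN e))
    (hcard : ∀ t, (bagB t).card ≤ w + 1) (n : ℕ) :
    TreewidthLE (substG tail head n) w :=
  treewidthLE_of_parent (p := parentN pB rB eN n) (rank := rankN rankB n) (root := rootN rB n)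
    (substG tail head n) w (bagN tail head bagB n) (topN topB n)
    (rankN_lt hrankB n) (mem_bagN_topN htopB n)
    (stepN hstepB hsB htB heN n) (edgeN n) (cardN w hw hcard n)

end Rec

end Vale.Agent.Lib.P235
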